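import Mathlib

/-!
# P195: basic module theory over a local ring with radical cube zero
-/

universe u

namespace Vale.Agent.Lib.P195

open Submodule

/-- The data of a two-sided ideal `J` of `R` all of whose non-members are units and such that
`J³ = 0` (so `R` is local with radical `J`). -/
structure ShortLocal {R : Type u} [Ring R] (J : Ideal R) : Prop where
  mul_right : ∀ a ∈ J, ∀ r : R, a * r ∈ J
  unit : ∀ x : R, x ∉ J → IsUnit x
  cube : ∀ a ∈ J, ∀ b ∈ J, ∀ c ∈ J, a * b * c = 0
  nontriv : (1 : R) ≠ 0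

variable {R : Type u} [Ring R] {J : Ideal R}

lemma ShortLocal.not_unit (hJ : ShortLocal J) {x : R} (hx : x ∈ J) : ¬ IsUnit x := by
  intro hu
  have h := hJ.cube x hx x hx x hx
  have h3 : IsUnit (x * x * x) := (hu.mul hu).mul hu
  rw [h] at h3
  exact hJ.nontriv (by
    obtain ⟨u, hu0⟩ := h3
    have := u.mul_inv
    rw [hu0, zero_mul] at this
    exact this.symm)

section Modules

variable {X : Type*} [AddCommGroup X] [Module R X]

/-- A surjection from a finite free module whose kernel lies in `J` times the free module. -/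
structure IsMinCover (J : Ideal R) {p : ℕ} (π : (Fin p → R) →ₗ[R] X) : Prop where
  surj : Function.Surjective π
  min : ∀ v : Fin p → R, π v = 0 → ∀ i, v i ∈ J

lemma pi_apply_sum {p : ℕ} (π : (Fin p → R) →ₗ[R] X) (v : Fin p → R) :
    π v = ∑ i, v i • π (Pi.single i 1) := by
  classical
  rw [LinearMap.pi_apply_eq_sum_univ π v]
  refine Finset.sum_congr rfl fun i _ => ?_
  congr 2
  ext j
  simp [Pi.single_apply, eq_comm]

lemma factor_of_surjective {P N : Type*} [AddCommGroup P] [Module R P] [AddCommGroup N]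
    [Module R N] (π : P →ₗ[R] X) (hπ : Function.Surjective π) (g : P →ₗ[R] N)
    (h : ∀ v, π v = 0 → g v = 0) : ∃ f : X →ₗ[R] N, ∀ v, f (π v) = g v := by
  refine ⟨((LinearMap.ker π).liftQ g (fun v hv => LinearMap.mem_ker.mpr (h v (LinearMap.mem_ker.mp hv)))).comp
    (π.quotKerEquivOfSurjective hπ).symm.toLinearMap, fun v => ?_⟩
  have : (π.quotKerEquivOfSurjective hπ).symm (π v) = (LinearMap.ker π).mkQ v := by
    rw [LinearEquiv.symm_apply_eq]
    simp
  rw [LinearMap.comp_apply, LinearEquiv.coe_coe, this, Submodule.mkQ_apply, Submodule.liftQ_apply]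

lemma reduce_gen {m : ℕ} (π : (Fin (m + 1) → R) →ₗ[R] X) (hπ : Function.Surjective π)
    (v : Fin (m + 1) → R) (hv : π v = 0) (j : Fin (m + 1)) (hj : IsUnit (v j)) :
    ∃ f : (Fin m → R) →ₗ[R] X, Function.Surjective f := by
  classical
  obtain ⟨u, hu⟩ := hj
  refine ⟨Fintype.linearCombination R (fun i : Fin m => π (Pi.single (j.succAbove i) 1)), ?_⟩
  intro y
  obtain ⟨w, rfl⟩ := hπ y
  have h0 : v j • π (Pi.single j 1) +
      ∑ i : Fin m, v (j.succAbove i) • π (Pi.single (j.succAbove i) 1) = 0 := by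
    rw [← Fin.sum_univ_succAbove (fun i => v i • π (Pi.single i 1)) j, ← pi_apply_sum, hv]
  have h1 : π (Pi.single j 1) =
      - ((↑u⁻¹ : R) • ∑ i : Fin m, v (j.succAbove i) • π (Pi.single (j.succAbove i) 1)) := by
    have h2 : v j • π (Pi.single j 1) =
      - ∑ i : Fin m, v (j.succAbove i) • π (Pi.single (j.succAbove i) 1) :=
      eq_neg_of_add_eq_zero_left h0
    have h3 : (↑u⁻¹ : R) • (v j • π (Pi.single j 1)) = π (Pi.single j 1) := by
      rw [smul_smul, ← hu, Units.inv_mul, one_smul]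
    rw [← h3, h2, smul_neg]
  refine ⟨fun i => w (j.succAbove i) - w j * (↑u⁻¹ : R) * v (j.succAbove i), ?_⟩
  rw [Fintype.linearCombination_apply, pi_apply_sum π w,
    Fin.sum_univ_succAbove (fun i => w i • π (Pi.single i 1)) j, h1]
  simp only [sub_smul, Finset.sum_sub_distrib, smul_neg, Finset.smul_sum, smul_smul, mul_assoc]
  abel

lemma exists_minCover_aux (hJ : ShortLocal J) : ∀ n : ℕ, (∃ f : (Fin n → R) →ₗ[R] X,
    Function.Surjective f) → ∃ (p : ℕ) (π : (Fin p → R) →ₗ[R] X), IsMinCover J π := by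
  intro n
  induction n with
  | zero =>
    rintro ⟨f, hf⟩
    exact ⟨0, f, hf, fun v _ i => i.elim0⟩
  | succ m ih =>
    rintro ⟨f, hf⟩
    by_cases h : ∀ v : Fin (m + 1) → R, f v = 0 → ∀ i, v i ∈ J
    · exact ⟨m + 1, f, hf, h⟩
    · push Not at h
      obtain ⟨v, hv, j, hj⟩ := h
      exact ih (reduce_gen f hf v hv j (hJ.unit _ hj))

lemma exists_minCover (hJ : ShortLocal J) (X : Type*) [AddCommGroup X] [Module R X]
    [Module.Finite R X] : ∃ (p : ℕ) (π : (Fin p → R) →ₗ[R] X), IsMinCover J π := by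
  obtain ⟨n, f, hf⟩ := Module.Finite.exists_fin' R X
  exact exists_minCover_aux hJ n ⟨f, hf⟩

/-- Maps out of `X` to elements killed by `J` can be prescribed on a minimal generating family. -/
lemma IsMinCover.exists_lift {p : ℕ} {π : (Fin p → R) →ₗ[R] X} (hπ : IsMinCover J π)
    {N : Type*} [AddCommGroup N] [Module R N] (s : Fin p → N)
    (hs : ∀ a ∈ J, ∀ i, a • s i = 0) :
    ∃ f : X →ₗ[R] N, ∀ v, f (π v) = ∑ i, v i • s i := by
  obtain ⟨f, hf⟩ := factor_of_surjective π hπ.surj (Fintype.linearCombination R s) (by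
    intro v hv
    rw [Fintype.linearCombination_apply]
    exact Finset.sum_eq_zero fun i _ => hs _ (hπ.min v hv i) i)
  exact ⟨f, fun v => by rw [hf, Fintype.linearCombination_apply]⟩

lemma IsMinCover.pos_of_nontrivial {p : ℕ} {π : (Fin p → R) →ₗ[R] X} (hπ : IsMinCover J π)
    [Nontrivial X] : 0 < p := by
  rcases Nat.eq_zero_or_pos p with h | h
  · subst h
    exfalso
    obtain ⟨x, hx⟩ := exists_ne (0 : X)
    obtain ⟨v, rfl⟩ := hπ.surj x
    apply hx
    have : v = 0 := Subsingleton.elim _ _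
    rw [this, map_zero]
  · exact h

/-- Elements of `J • ⊤` are the images of vectors with entries in `J`. -/
lemma IsMinCover.mem_smul_top_iff (hJ : ShortLocal J) {p : ℕ} {π : (Fin p → R) →ₗ[R] X}
    (hπ : IsMinCover J π) (v : Fin p → R) :
    π v ∈ J • (⊤ : Submodule R X) ↔ ∀ i, v i ∈ J := by
  constructor
  · intro h
    have key : ∀ y ∈ J • (⊤ : Submodule R X), ∃ w : Fin p → R, (∀ i, w i ∈ J) ∧ π w = y := by
      intro y hy
      induction hy using Submodule.smul_induction_on' with
      | smul a ha n _ =>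
        obtain ⟨u, rfl⟩ := hπ.surj n
        exact ⟨a • u, fun i => hJ.mul_right a ha _, by rw [map_smul]⟩
      | add x _ y _ hx hy =>
        obtain ⟨w₁, h₁, rfl⟩ := hx
        obtain ⟨w₂, h₂, rfl⟩ := hy
        exact ⟨w₁ + w₂, fun i => J.add_mem (h₁ i) (h₂ i), by rw [map_add]⟩
    obtain ⟨w, hw, hwv⟩ := key _ h
    intro i
    have h0 : π (v - w) = 0 := by rw [map_sub, hwv, sub_self]
    have := J.add_mem (hπ.min _ h0 i) (hw i)
    simpa using this
  · intro h
    rw [pi_apply_sum]
    exact Submodule.sum_mem _ fun i _ => Submodule.smul_mem_smul (h i) mem_top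

/-- Elements of `J • ⊤` are killed by `J` when `J² X = 0`. -/
lemma smul_eq_zero_of_mem_smul_top (hsq : ∀ a ∈ J, ∀ b ∈ J, ∀ x : X, a • b • x = 0)
    {y : X} (hy : y ∈ J • (⊤ : Submodule R X)) {a : R} (ha : a ∈ J) : a • y = 0 := by
  induction hy using Submodule.smul_induction_on' with
  | smul b hb n _ => exact hsq a ha b hb n
  | add x _ y _ hx hy => rw [smul_add, hx, hy, add_zero]

/-- Nakayama for `J² X = 0`. -/
lemma exists_not_mem_smul_top [Nontrivial X]
    (hsq : ∀ a ∈ J, ∀ b ∈ J, ∀ x : X, a • b • x = 0) :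
    ∃ x : X, x ∉ J • (⊤ : Submodule R X) := by
  by_contra h
  push Not at h
  obtain ⟨x, hx⟩ := exists_ne (0 : X)
  apply hx
  have key : ∀ y ∈ J • (⊤ : Submodule R X), y = 0 := by
    intro y hy
    induction hy using Submodule.smul_induction_on' with
    | smul b hb n _ => exact smul_eq_zero_of_mem_smul_top hsq (h n) hb
    | add x _ y _ hx hy => rw [hx, hy, add_zero]
  exact key x (h x)

end Modules

end Vale.Agent.Lib.P195
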