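import Vale.Agent.Lib.P195.Lengths

/-!
# P195: the counting lemmas
-/

universe u

namespace Vale.Agent.Lib.P195

open Submodule

variable {k : Type*} [CommRing k] {R : Type u} [Ring R] [Algebra k R] {J : Ideal R}

section Top

variable {X : Type*} [AddCommGroup X] [Module R X] [Module k X] [IsScalarTower k R X]

lemma IsMinCover.length_quot (hJ : ShortLocal J) {p : ℕ} {π : (Fin p → R) →ₗ[R] X}
    (hπ : IsMinCover J π) :
    Module.length k (X ⧸ (J • (⊤ : Submodule R X))) = p * Module.length k (R ⧸ J) := by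
  let τ : (Fin p → R) →ₗ[R] (X ⧸ (J • (⊤ : Submodule R X))) := (J • (⊤ : Submodule R X)).mkQ.comp π
  let τ' : (Fin p → R) →ₗ[R] (Fin p → R ⧸ J) := (Submodule.mkQ J).compLeft (Fin p)
  have hτ : Function.Surjective τ := (Submodule.mkQ_surjective _).comp hπ.surj
  have hτ' : Function.Surjective τ' := by
    intro w
    choose v hv using fun i => Submodule.mkQ_surjective J (w i)
    exact ⟨v, by ext i; simp [τ', hv]⟩
  have hker : LinearMap.ker τ = LinearMap.ker τ' := by
    ext v
    rw [LinearMap.mem_ker, LinearMap.mem_ker]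
    have h1 : τ v = 0 ↔ π v ∈ J • (⊤ : Submodule R X) := by
      simp [τ]
    have h2 : τ' v = 0 ↔ ∀ i, v i ∈ J := by
      constructor
      · intro h i
        have := congrFun h i
        simpa [τ'] using this
      · intro h
        ext i
        simpa [τ'] using h i
    rw [h1, h2, hπ.mem_smul_top_iff hJ]
  let e := (τ.quotKerEquivOfSurjective hτ).symm ≪≫ₗ Submodule.quotEquivOfEq _ _ hker ≪≫ₗ
    τ'.quotKerEquivOfSurjective hτ'
  rw [(e.restrictScalars k).length_eq, Module.length_pi]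
  simp

lemma IsMinCover.length_eq (hJ : ShortLocal J) {p : ℕ} {π : (Fin p → R) →ₗ[R] X}
    (hπ : IsMinCover J π) :
    Module.length k X = p * Module.length k (R ⧸ J) +
      Module.length k ↥(J • (⊤ : Submodule R X)) := by
  rw [← hπ.length_quot (k := k) hJ, add_comm]
  exact length_sub_add_quot' _

end Top

section Theta

variable {p q : ℕ}

/-- The `k`-linear map `N^p → N^q` given by a `q × p` matrix over `R`. -/
def Theta (k : Type*) [CommRing k] [Algebra k R] (W : Fin q → Fin p → R) (N : Type*)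
    [AddCommGroup N] [Module R N] [Module k N] [IsScalarTower k R N] :
    (Fin p → N) →ₗ[k] (Fin q → N) where
  toFun n := fun j => ∑ i, W j i • n i
  map_add' a b := by
    ext j
    simp [smul_add, Finset.sum_add_distrib]
  map_smul' c a := by
    ext j
    simp [Finset.smul_sum, smul_comm c]

variable {N : Type*} [AddCommGroup N] [Module R N] [Module k N] [IsScalarTower k R N]

@[simp] lemma Theta_apply (W : Fin q → Fin p → R) (n : Fin p → N) (j : Fin q) :
    Theta k W N n j = ∑ i, W j i • n i := rfl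

variable {X Y : Type*} [AddCommGroup X] [Module R X] [AddCommGroup Y] [Module R Y]

/-- The matrix of a presentation. -/
def presMat (i : Y →ₗ[R] (Fin p → R)) (ρ : (Fin q → R) →ₗ[R] Y) : Fin q → Fin p → R :=
  fun j => i (ρ (Pi.single j 1))

lemma presMat_mem {π : (Fin p → R) →ₗ[R] X} (hπ : IsMinCover J π) {i : Y →ₗ[R] (Fin p → R)}
    (hex : Function.Exact i π) (ρ : (Fin q → R) →ₗ[R] Y) (j : Fin q) (l : Fin p) :
    presMat i ρ j l ∈ J :=
  hπ.min _ (hex.apply_apply_eq_zero _) l

lemma Theta_range {i : Y →ₗ[R] (Fin p → R)} {ρ : (Fin q → R) →ₗ[R] Y} (hρ : IsMinCover J ρ)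
    (hext : ∀ f : Y →ₗ[R] N, ∃ g : (Fin p → R) →ₗ[R] N, g.comp i = f)
    (s : Fin q → N) (hs : ∀ a ∈ J, ∀ j, a • s j = 0) :
    s ∈ LinearMap.range (Theta k (presMat i ρ) N) := by
  classical
  obtain ⟨f, hf⟩ := hρ.exists_lift s hs
  obtain ⟨g, hg⟩ := hext f
  refine ⟨fun l => g (Pi.single l 1), ?_⟩
  ext j
  rw [Theta_apply, ← pi_apply_sum g, presMat]
  have h1 : g (i (ρ (Pi.single j 1))) = f (ρ (Pi.single j 1)) := LinearMap.congr_fun hg _
  rw [h1, hf]
  simp [Pi.single_apply]

lemma Theta_eq_zero_of_killed {W : Fin q → Fin p → R} (hW : ∀ j l, W j l ∈ J)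
    (n : Fin p → N) (hn : ∀ a ∈ J, ∀ l, a • n l = 0) : Theta k W N n = 0 := by
  ext j
  rw [Theta_apply]
  exact Finset.sum_eq_zero fun l _ => hn _ (hW j l) l

end Theta

section Soc

variable {p q : ℕ}
variable {X Y : Type*} [AddCommGroup X] [Module R X] [AddCommGroup Y] [Module R Y]

/-- If maps from the (nonzero) syzygy to `X` extend, the socle of `X` lies in the radical. -/
lemma soc_le_rad {π : (Fin p → R) →ₗ[R] X} (hπ : IsMinCover J π) {i : Y →ₗ[R] (Fin p → R)}
    (hex : Function.Exact i π) {ρ : (Fin q → R) →ₗ[R] Y} (hρ : IsMinCover J ρ) (hq : 0 < q)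
    (hext : ∀ f : Y →ₗ[R] X, ∃ g : (Fin p → R) →ₗ[R] X, g.comp i = f)
    (s : X) (hs : ∀ a ∈ J, a • s = 0) : s ∈ J • (⊤ : Submodule R X) := by
  classical
  obtain ⟨f, hf⟩ := hρ.exists_lift (fun _ => s) (fun a ha _ => hs a ha)
  obtain ⟨g, hg⟩ := hext f
  have h1 : g (i (ρ (Pi.single ⟨0, hq⟩ 1))) = f (ρ (Pi.single ⟨0, hq⟩ 1)) :=
    LinearMap.congr_fun hg _
  have h2 : f (ρ (Pi.single ⟨0, hq⟩ 1)) = s := by
    rw [hf]
    simp [Pi.single_apply]
  rw [← h2, ← h1, pi_apply_sum g]
  exact Submodule.sum_mem _ fun l _ =>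
    Submodule.smul_mem_smul (hπ.min _ (hex.apply_apply_eq_zero _) l) mem_top

/-- The square of `J`. -/
def Jsq (J : Ideal R) : Submodule R R := J • (J : Submodule R R)

lemma Jsq_smul_eq_zero (hsq : ∀ a ∈ J, ∀ b ∈ J, ∀ x : X, a • b • x = 0) {z : R} (hz : z ∈ Jsq J)
    (x : X) : z • x = 0 := by
  induction hz using Submodule.smul_induction_on' with
  | smul a ha b hb => rw [smul_eq_mul, mul_smul]; exact hsq a ha b hb x
  | add a _ b _ ha hb => rw [add_smul, ha, hb, add_zero]

lemma mul_Jsq_eq_zero (hJ : ShortLocal J) {a : R} (ha : a ∈ J) {z : R} (hz : z ∈ Jsq J) :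
    a * z = 0 := by
  induction hz using Submodule.smul_induction_on' with
  | smul b hb c hc => rw [smul_eq_mul, ← mul_assoc]; exact hJ.cube a ha b hb c hc
  | add b _ c _ hb hc => rw [mul_add, hb, hc, add_zero]

lemma Jsq_le (J : Ideal R) : Jsq J ≤ J := by
  intro z hz
  induction hz using Submodule.smul_induction_on' with
  | smul b hb c hc => exact J.smul_mem b hc
  | add b _ c _ hb hc => exact J.add_mem hb hc

/-- The radical of the syzygy of `X` is `J² P` if `J² X = 0` and the socle of the syzygy lies in its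
radical. -/
lemma map_rad_syzygy (hJ : ShortLocal J) {π : (Fin p → R) →ₗ[R] X} (hπ : IsMinCover J π)
    {i : Y →ₗ[R] (Fin p → R)} (hi : Function.Injective i) (hex : Function.Exact i π)
    (hsq : ∀ a ∈ J, ∀ b ∈ J, ∀ x : X, a • b • x = 0)
    (hsoc : ∀ y : Y, (∀ a ∈ J, a • y = 0) → y ∈ J • (⊤ : Submodule R Y)) :
    Submodule.map i (J • (⊤ : Submodule R Y)) = Submodule.pi Set.univ (fun _ : Fin p => Jsq J) := by
  apply le_antisymm
  · rw [Submodule.map_le_iff_le_comap, Submodule.smul_le]
    intro a ha y _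
    rw [Submodule.mem_comap, map_smul]
    intro l _
    exact Submodule.smul_mem_smul ha (hπ.min _ (hex.apply_apply_eq_zero _) l)
  · intro v hv
    have hv' : ∀ l, v l ∈ Jsq J := fun l => hv l (Set.mem_univ l)
    have h0 : π v = 0 := by
      rw [pi_apply_sum]
      exact Finset.sum_eq_zero fun l _ => Jsq_smul_eq_zero hsq (hv' l) _
    obtain ⟨y, rfl⟩ := (hex v).mp h0
    refine ⟨y, hsoc y ?_, rfl⟩
    intro a ha
    apply hi
    rw [map_smul, map_zero]
    ext l
    exact mul_Jsq_eq_zero hJ ha (hv' l)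

lemma length_rad_syzygy [Module k Y] [IsScalarTower k R Y]
    (hJ : ShortLocal J) {π : (Fin p → R) →ₗ[R] X} (hπ : IsMinCover J π)
    {i : Y →ₗ[R] (Fin p → R)} (hi : Function.Injective i) (hex : Function.Exact i π)
    (hsq : ∀ a ∈ J, ∀ b ∈ J, ∀ x : X, a • b • x = 0)
    (hsoc : ∀ y : Y, (∀ a ∈ J, a • y = 0) → y ∈ J • (⊤ : Submodule R Y)) :
    Module.length k ↥(J • (⊤ : Submodule R Y)) = p * Module.length k ↥(Jsq J) := by
  rw [length_equiv_R (k := k) (Submodule.equivMapOfInjective i hi (J • (⊤ : Submodule R Y))),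
    map_rad_syzygy hJ hπ hi hex hsq hsoc, length_pi_sub']

end Soc

section Count

variable {p q : ℕ}
variable {X Y : Type*} [AddCommGroup X] [Module R X] [AddCommGroup Y] [Module R Y]

/-- The main counting inequality coming from `Ext¹(X,X) = 0`. -/
lemma counting [IsArtinianRing k] [Module.Finite k R] [Module k X] [IsScalarTower k R X]
    [Module.Finite k X] [Nontrivial X] (hJ : ShortLocal J)
    {π : (Fin p → R) →ₗ[R] X} (hπ : IsMinCover J π) {i : Y →ₗ[R] (Fin p → R)}
    (hex : Function.Exact i π) {ρ : (Fin q → R) →ₗ[R] Y} (hρ : IsMinCover J ρ)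
    (hsq : ∀ a ∈ J, ∀ b ∈ J, ∀ x : X, a • b • x = 0)
    (hext : ∀ f : Y →ₗ[R] X, ∃ g : (Fin p → R) →ₗ[R] X, g.comp i = f) :
    q * Module.length k ↥(J • (⊤ : Submodule R X)) + 1 ≤ p * p * Module.length k (R ⧸ J) := by
  set S : Submodule k X := (J • (⊤ : Submodule R X)).restrictScalars k with hS
  set Θ := Theta k (presMat i ρ) X with hΘ
  have h1 : Module.length k (Fin p → X) =
      Module.length k (LinearMap.ker Θ) + Module.length k (LinearMap.range Θ) :=
    length_ker_add_range Θ
  have h2 : Module.length k (Fin p → X) = p * Module.length k X := by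
    rw [Module.length_pi]; simp
  have h3 : Submodule.pi Set.univ (fun _ : Fin q => S) ≤ LinearMap.range Θ := by
    intro s hs
    exact Theta_range hρ hext s
      (fun a ha j => smul_eq_zero_of_mem_smul_top hsq (hs j (Set.mem_univ j)) ha)
  have h4 : Submodule.pi Set.univ (fun _ : Fin p => S) < LinearMap.ker Θ := by
    rw [SetLike.lt_iff_le_and_exists]
    refine ⟨?_, fun l => π (Pi.single l 1), ?_, ?_⟩
    · intro n hn
      rw [LinearMap.mem_ker]
      exact Theta_eq_zero_of_killed (presMat_mem hπ hex ρ) n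
        (fun a ha l => smul_eq_zero_of_mem_smul_top hsq (hn l (Set.mem_univ l)) ha)
    · rw [LinearMap.mem_ker]
      ext j
      rw [hΘ, Theta_apply, ← pi_apply_sum π, presMat]
      exact hex.apply_apply_eq_zero _
    · intro hmem
      obtain ⟨x, hx⟩ := exists_not_mem_smul_top (J := J) hsq
      apply hx
      obtain ⟨v, rfl⟩ := hπ.surj x
      rw [pi_apply_sum]
      exact Submodule.sum_mem _ fun l _ => Submodule.smul_mem _ _ (hmem l (Set.mem_univ l))
  have h5 := length_le_of_le h3
  have h6 := length_lt_of_lt h4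
  rw [length_pi_sub] at h5 h6
  have h7 : Module.length k ↥S = Module.length k ↥(J • (⊤ : Submodule R X)) :=
    length_restrictScalars _
  have h8 := hπ.length_eq (k := k) hJ
  rw [h7] at h5 h6
  have f1 : Module.length k ↥(J • (⊤ : Submodule R X)) ≠ ⊤ := Module.length_ne_top
  have f2 : Module.length k (R ⧸ J) ≠ ⊤ := Module.length_ne_top
  have f3 : Module.length k (LinearMap.ker Θ) ≠ ⊤ := Module.length_ne_top
  have f4 : Module.length k (LinearMap.range Θ) ≠ ⊤ := Module.length_ne_top
  obtain ⟨s, hs⟩ := ENat.ne_top_iff_exists.mp f1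
  obtain ⟨d, hd⟩ := ENat.ne_top_iff_exists.mp f2
  obtain ⟨a, ha⟩ := ENat.ne_top_iff_exists.mp f3
  obtain ⟨b, hb⟩ := ENat.ne_top_iff_exists.mp f4
  rw [h2, h8, ← hs, ← hd, ← ha, ← hb] at h1
  rw [← hs, ← hb] at h5
  rw [← hs, ← ha] at h6
  rw [← hs, ← hd]
  norm_cast at h1 h5 h6 ⊢
  nlinarith

/-- The socle (elements killed by `J`) of a module. -/
def soc (hJ : ShortLocal J) (X : Type*) [AddCommGroup X] [Module R X] : Submodule R X where
  carrier := {x | ∀ a ∈ J, a • x = 0}
  add_mem' := by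
    intro x y hx hy a ha
    rw [smul_add, hx a ha, hy a ha, add_zero]
  zero_mem' := by
    intro a _
    exact smul_zero a
  smul_mem' := by
    intro r x hx a ha
    rw [smul_smul]
    exact hx _ (hJ.mul_right a ha r)

lemma mem_soc (hJ : ShortLocal J) {x : X} : x ∈ soc hJ X ↔ ∀ a ∈ J, a • x = 0 := Iff.rfl

/-- The inequality coming from `Ext¹(X,R) = 0`. -/
lemma deg_ineq (hJ : ShortLocal J)
    {π : (Fin p → R) →ₗ[R] X} (hπ : IsMinCover J π) {i : Y →ₗ[R] (Fin p → R)}
    (hex : Function.Exact i π) {ρ : (Fin q → R) →ₗ[R] Y} (hρ : IsMinCover J ρ)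
    (hext : ∀ f : Y →ₗ[R] R, ∃ g : (Fin p → R) →ₗ[R] R, g.comp i = f) :
    q * Module.length k ↥(soc hJ R) ≤
      q * Module.length k ↥(Jsq J) + p * Module.length k (R ⧸ J) := by
  set Θ := Theta k (presMat i ρ) R with hΘ
  set T : Submodule k R := (soc hJ R).restrictScalars k with hT
  set N' : Submodule k (Fin q → R) :=
    Submodule.pi Set.univ (fun _ : Fin q => (Jsq J).restrictScalars k) with hN'
  set M' : Submodule k (Fin p → R) :=
    Submodule.pi Set.univ (fun _ : Fin p => J.restrictScalars k) with hM'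
  have h3 : Submodule.pi Set.univ (fun _ : Fin q => T) ≤ LinearMap.range Θ := by
    intro s hs
    exact Theta_range hρ hext s (fun a ha j => hs j (Set.mem_univ j) a ha)
  have hM : M' ≤ LinearMap.ker (N'.mkQ.comp Θ) := by
    intro n hn
    rw [LinearMap.mem_ker, LinearMap.comp_apply, Submodule.mkQ_apply,
      Submodule.Quotient.mk_eq_zero]
    intro j _
    rw [hΘ, Theta_apply]
    have hl : ∀ l, presMat i ρ j l • n l ∈ Jsq J := fun l =>
      Submodule.smul_mem_smul (presMat_mem hπ hex ρ j l)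
        ((Submodule.restrictScalars_mem k J _).mp (hn l (Set.mem_univ l)))
    exact (Submodule.restrictScalars_mem k (Jsq J) _).mpr
      ((Jsq J).sum_mem fun l _ => hl l)
  have h5 := length_le_of_le h3
  rw [length_pi_sub, hT, length_restrictScalars] at h5
  have h6 := length_range_le Θ N'
  have h7 := length_range_le_quot _ M' hM
  rw [hM', length_quot_pi] at h7
  rw [hN', length_pi_sub, length_restrictScalars] at h6
  calc q * Module.length k ↥(soc hJ R) ≤ Module.length k (LinearMap.range Θ) := h5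
    _ ≤ _ := h6
    _ ≤ _ := add_le_add_right h7 _

end Count

end Vale.Agent.Lib.P195
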