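import Mathlib

/-!
# P195: Ext lemmas (dimension shifting) used for the Auslander-Reiten conjecture
-/

open CategoryTheory Abelian

universe w v u

namespace Vale.Agent.Lib.P195

section General

variable {C : Type u} [Category.{v} C] [Abelian C] [HasExt.{w} C]

/-- Contravariant dimension shifting (vanishing form). -/
lemma ext_contra_shift_up {S : ShortComplex C} (hS : S.ShortExact) [Projective S.X₂] (Y : C)
    (n : ℕ) (h : ∀ e : Ext S.X₁ Y n, e = 0) : ∀ e : Ext S.X₃ Y (n + 1), e = 0 := by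
  intro e
  obtain ⟨x₁, hx₁⟩ := Ext.contravariant_sequence_exact₃ hS Y e
    (Ext.eq_zero_of_projective _) (add_comm 1 n)
  rw [← hx₁, h x₁, Ext.comp_zero]

lemma ext_contra_shift_down {S : ShortComplex C} (hS : S.ShortExact) [Projective S.X₂] (Y : C)
    (n : ℕ) (h : ∀ e : Ext S.X₃ Y (n + 1 + 1), e = 0) : ∀ e : Ext S.X₁ Y (n + 1), e = 0 := by
  intro e
  obtain ⟨x₂, hx₂⟩ := Ext.contravariant_sequence_exact₁ hS Y e (add_comm 1 (n + 1)) (h _)
  rw [← hx₂, Ext.eq_zero_of_projective x₂, Ext.comp_zero]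

/-- `Ext¹(X₃, Y) = 0` gives the extension property. -/
lemma ext_one_extension {S : ShortComplex C} (hS : S.ShortExact) (Y : C)
    (h : ∀ e : Ext S.X₃ Y 1, e = 0) (φ : S.X₁ ⟶ Y) : ∃ ψ : S.X₂ ⟶ Y, S.f ≫ ψ = φ := by
  obtain ⟨x₂, hx₂⟩ := Ext.contravariant_sequence_exact₁ hS Y (Ext.mk₀ φ) (add_zero 1) (h _)
  obtain ⟨ψ, rfl⟩ := (Ext.mk₀_bijective _ _).2 x₂
  refine ⟨ψ, ?_⟩
  rw [Ext.mk₀_comp_mk₀] at hx₂
  exact (Ext.mk₀_bijective _ _).1 hx₂

/-- The extension property gives `Ext¹(X₃, Y) = 0` when the middle term is projective. -/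
lemma ext_one_of_extension {S : ShortComplex C} (hS : S.ShortExact) [Projective S.X₂] (Y : C)
    (h : ∀ φ : S.X₁ ⟶ Y, ∃ ψ : S.X₂ ⟶ Y, S.f ≫ ψ = φ) : ∀ e : Ext S.X₃ Y 1, e = 0 := by
  intro e
  obtain ⟨x₁, hx₁⟩ := Ext.contravariant_sequence_exact₃ hS Y e
    (Ext.eq_zero_of_projective _) (add_zero 1)
  obtain ⟨φ, rfl⟩ := (Ext.mk₀_bijective _ _).2 x₁
  obtain ⟨ψ, rfl⟩ := h φ
  rw [← hx₁, ← Ext.mk₀_comp_mk₀, hS.extClass_comp_assoc]

/-- Covariant dimension shifting (vanishing form), upward. -/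
lemma ext_cov_shift_up {S : ShortComplex C} (hS : S.ShortExact) (X : C) (n : ℕ)
    (h₂ : ∀ e : Ext X S.X₂ (n + 1), e = 0) (h : ∀ e : Ext X S.X₃ n, e = 0) :
    ∀ e : Ext X S.X₁ (n + 1), e = 0 := by
  intro e
  obtain ⟨x₃, hx₃⟩ := Ext.covariant_sequence_exact₁ X hS e (h₂ _) rfl
  rw [← hx₃, h x₃, Ext.zero_comp]

/-- Covariant dimension shifting (vanishing form), downward. -/
lemma ext_cov_shift_down {S : ShortComplex C} (hS : S.ShortExact) (X : C) (n : ℕ)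
    (h₂ : ∀ e : Ext X S.X₂ n, e = 0) (h : ∀ e : Ext X S.X₁ (n + 1), e = 0) :
    ∀ e : Ext X S.X₃ n, e = 0 := by
  intro e
  obtain ⟨x₂, hx₂⟩ := Ext.covariant_sequence_exact₃ X hS e rfl (h _)
  rw [← hx₂, h₂ x₂, Ext.zero_comp]

/-- If the identity of `P` is a finite sum of maps factoring through `Y`, then vanishing of
`Ext(X, Y)` implies vanishing of `Ext(X, P)`. -/
lemma ext_eq_zero_of_id_eq_sum {X Y P : C} {ι : Type*} [Fintype ι] (p : ι → (P ⟶ Y))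
    (j : ι → (Y ⟶ P)) (hid : 𝟙 P = ∑ i, p i ≫ j i) (n : ℕ) (h : ∀ e : Ext X Y n, e = 0) :
    ∀ e : Ext X P n, e = 0 := by
  intro e
  have h1 : e = e.comp (Ext.mk₀ (𝟙 P)) (add_zero n) := by simp
  rw [h1, hid, Ext.mk₀_sum, Ext.comp_sum]
  apply Finset.sum_eq_zero
  intro i _
  rw [← Ext.mk₀_comp_mk₀, ← Ext.comp_assoc_of_third_deg_zero, h (e.comp (Ext.mk₀ (p i)) _),
    Ext.zero_comp]

end General

end Vale.Agent.Lib.P195
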