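import Vale.Agent.Lib.P195.ExtLemmas

/-!
# P195: the condition (AR') for modules and its behaviour under syzygies
-/

open CategoryTheory Abelian

universe u

namespace Vale.Agent.Lib.P195

variable {R : Type u} [Ring R]

/-- The vanishing condition: `Ext¹(X,X) = 0` and `Extⁱ(X,R) = 0` for all `i ≥ 1`. -/
def ARcond (R : Type u) [Ring R] (X : Type u) [AddCommGroup X] [Module R X] : Prop :=
  (∀ e : Ext (ModuleCat.of R X) (ModuleCat.of R X) 1, e = 0) ∧
  (∀ i : ℕ, ∀ e : Ext (ModuleCat.of R X) (ModuleCat.of R R) (i + 1), e = 0)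

section

variable {X Y : Type u} [AddCommGroup X] [Module R X] [AddCommGroup Y] [Module R Y]
variable {p : ℕ} (i : Y →ₗ[R] (Fin p → R)) (π : (Fin p → R) →ₗ[R] X)

/-- The short complex attached to a presentation. -/
noncomputable abbrev presSC (hex : Function.Exact i π) : ShortComplex (ModuleCat.{u} R) :=
  ModuleCat.shortComplexOfCompEqZero i π hex.linearMap_comp_eq_zero

lemma presSC_shortExact (hi : Function.Injective i) (hπ : Function.Surjective π)
    (hex : Function.Exact i π) : (presSC i π hex).ShortExact :=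
  ModuleCat.shortComplex_shortExact _ hex hi hπ

instance presSC_proj (hex : Function.Exact i π) : Projective (presSC i π hex).X₂ := by
  have : Module.Projective R (Fin p → R) := inferInstance
  exact ModuleCat.projective_of_categoryTheory_projective (ModuleCat.of R (Fin p → R))

lemma ext_free_eq_zero (n : ℕ)
    (h : ∀ e : Ext (ModuleCat.of R X) (ModuleCat.of R R) n, e = 0) :
    ∀ e : Ext (ModuleCat.of R X) (ModuleCat.of R (Fin p → R)) n, e = 0 := by
  apply ext_eq_zero_of_id_eq_sum
    (fun j : Fin p => ModuleCat.ofHom (LinearMap.proj (R := R) (φ := fun _ : Fin p => R) j))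
    (fun j : Fin p => ModuleCat.ofHom (LinearMap.single R (fun _ : Fin p => R) j)) _ n h
  ext x
  simp

variable {i π}

/-- Extension property from `Ext¹ = 0`. -/
lemma extension_of_ext_one (hi : Function.Injective i) (hπ : Function.Surjective π)
    (hex : Function.Exact i π) {N : Type u} [AddCommGroup N] [Module R N]
    (h : ∀ e : Ext (ModuleCat.of R X) (ModuleCat.of R N) 1, e = 0) (f : Y →ₗ[R] N) :
    ∃ g : (Fin p → R) →ₗ[R] N, g.comp i = f := by
  obtain ⟨ψ, hψ⟩ := ext_one_extension (presSC_shortExact i π hi hπ hex) (ModuleCat.of R N) h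
    (ModuleCat.ofHom f)
  refine ⟨ψ.hom, ?_⟩
  have := congrArg ModuleCat.Hom.hom hψ
  simpa using this

/-- `Ext¹ = 0` from the extension property. -/
lemma ext_one_of_extension' (hi : Function.Injective i) (hπ : Function.Surjective π)
    (hex : Function.Exact i π) {N : Type u} [AddCommGroup N] [Module R N]
    (h : ∀ f : Y →ₗ[R] N, ∃ g : (Fin p → R) →ₗ[R] N, g.comp i = f) :
    ∀ e : Ext (ModuleCat.of R X) (ModuleCat.of R N) 1, e = 0 := by
  apply ext_one_of_extension (presSC_shortExact i π hi hπ hex) (ModuleCat.of R N)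
  intro φ
  obtain ⟨g, hg⟩ := h φ.hom
  refine ⟨ModuleCat.ofHom g, ?_⟩
  ext x
  have := LinearMap.congr_fun hg x
  simpa using this

/-- (AR') passes to syzygies. -/
lemma ARcond.syzygy (hi : Function.Injective i) (hπ : Function.Surjective π)
    (hex : Function.Exact i π) (h : ARcond R X) : ARcond R Y := by
  have hS := presSC_shortExact i π hi hπ hex
  refine ⟨?_, fun n => ?_⟩
  · apply ext_contra_shift_down hS (ModuleCat.of R Y) 0
    apply ext_cov_shift_up hS (ModuleCat.of R X) 1
    · exact ext_free_eq_zero (p := p) 2 (h.2 1)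
    · exact h.1
  · exact ext_contra_shift_down hS (ModuleCat.of R R) n (h.2 (n + 1))

/-- (AR') passes to cosyzygies provided maps to `R` extend. -/
lemma ARcond.cosyzygy (hi : Function.Injective i) (hπ : Function.Surjective π)
    (hex : Function.Exact i π) (h : ARcond R Y)
    (hext : ∀ f : Y →ₗ[R] R, ∃ g : (Fin p → R) →ₗ[R] R, g.comp i = f) : ARcond R X := by
  have hS := presSC_shortExact i π hi hπ hex
  have hR : ∀ n : ℕ, ∀ e : Ext (ModuleCat.of R X) (ModuleCat.of R R) (n + 1), e = 0 := by
    intro n
    cases n with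
    | zero => exact ext_one_of_extension' hi hπ hex hext
    | succ n => exact ext_contra_shift_up hS (ModuleCat.of R R) (n + 1) (h.2 n)
  refine ⟨?_, hR⟩
  apply ext_cov_shift_down hS (ModuleCat.of R X) 1
  · exact ext_free_eq_zero (p := p) 1 (hR 0)
  · exact ext_contra_shift_up hS (ModuleCat.of R Y) 1 h.1

end

end Vale.Agent.Lib.P195
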