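import Vale.Agent.Lib.P195.GenMain

/-!
# P195: radical cube zero, vanishing of `Ext` only in a bounded range of degrees
-/

universe u v

namespace Vale.Agent.Lib.P195

open Submodule

lemma no_triangular' (r : ℕ) (c α β : ℕ → Fin r → ℕ)
    (h0 : ∀ n m, m < n → n < 2 * r + 1 → ∑ j, c n j * α m j = ∑ j, c (n + 1) j * β m j)
    (h1 : ∀ m, m < 2 * r + 1 → ∑ j, c (m + 1) j * β m j < ∑ j, c m j * α m j) : False := by
  classical
  let a : ℕ → (Fin r ⊕ Fin r → ℚ) := fun n =>
    Sum.elim (fun j => (c n j : ℚ)) (fun j => (c (n + 1) j : ℚ))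
  let b : ℕ → (Fin r ⊕ Fin r → ℚ) := fun m =>
    Sum.elim (fun j => (α m j : ℚ)) (fun j => -(β m j : ℚ))
  have hB : ∀ n m, ∑ x, a n x * b m x =
      ((∑ j, c n j * α m j : ℕ) : ℚ) - ((∑ j, c (n + 1) j * β m j : ℕ) : ℚ) := by
    intro n m
    rw [Fintype.sum_sum_type]
    simp only [a, b, Sum.elim_inl, Sum.elim_inr, mul_neg, Finset.sum_neg_distrib]
    push_cast
    ring
  have hB0 : ∀ n m, m < n → n < 2 * r + 1 → ∑ x, a n x * b m x = 0 := by
    intro n m h h'
    rw [hB, h0 n m h h', sub_self]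
  have hB1 : ∀ m, m < 2 * r + 1 → ∑ x, a m x * b m x ≠ 0 := by
    intro m hm
    rw [hB]
    have : ((∑ j, c (m + 1) j * β m j : ℕ) : ℚ) < ((∑ j, c m j * α m j : ℕ) : ℚ) := by
      exact_mod_cast h1 m hm
    intro h
    linarith
  have hli : LinearIndependent ℚ (fun n : Fin (2 * r + 1) => a n) := by
    rw [Fintype.linearIndependent_iff]
    intro g hg
    have key : ∀ m : Fin (2 * r + 1), ∑ n, g n * ∑ x, a n x * b m x = 0 := by
      intro m
      have h2 : ∑ x, (∑ n, g n • a n) x * b m x = 0 := by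
        rw [hg]
        simp
      rw [← h2]
      simp only [Finset.sum_apply, Pi.smul_apply, smul_eq_mul, Finset.sum_mul, Finset.mul_sum]
      rw [Finset.sum_comm]
      refine Finset.sum_congr rfl fun x _ => Finset.sum_congr rfl fun n _ => ?_
      ring
    have main : ∀ t : ℕ, ∀ m : Fin (2 * r + 1), (m : ℕ) = t → g m = 0 := by
      intro t
      induction t using Nat.strong_induction_on with
      | _ t ih =>
        intro m hm
        have h3 := key m
        rw [Finset.sum_eq_single m] at h3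
        · exact (mul_eq_zero.mp h3).resolve_right (hB1 m m.2)
        · intro n _ hne
          rcases lt_or_gt_of_ne (fun h => hne (Fin.ext h) : (n : ℕ) ≠ (m : ℕ)) with h | h
          · rw [ih n (by omega) n rfl, zero_mul]
          · rw [hB0 n m h n.2, mul_zero]
        · intro h
          exact absurd (Finset.mem_univ m) h
    exact fun i => main i i rfl
  have := hli.fintype_card_le_finrank
  rw [Module.finrank_fintype_fun_eq_card] at this
  simp at this
  omega

/-- The family of simple modules, with its cardinality equal to the length of `R ⧸ rad R`. -/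
theorem exists_simple_family' (R : Type u) [Ring R] (k : Type v) [CommRing k] [IsArtinianRing k]
    [Algebra k R] [Module.Finite k R] :
    ∃ (r : ℕ) (L : Fin r → Submodule R (R ⧸ Ring.jacobson R)),
      Module.length R (R ⧸ Ring.jacobson R) = r ∧
      ∀ (X : Type u) [AddCommGroup X] [Module R X] [Module.Finite R X], ∃ c : Fin r → ℕ,
        ∀ (V : Type u) [AddCommGroup V] [Module R V] [Module k V] [IsScalarTower k R V],
          (∀ a ∈ Ring.jacobson R, ∀ x : V, a • x = 0) →
          Module.length k (X →ₗ[R] V) = ∑ j, (c j : ℕ∞) * Module.length k (L j →ₗ[R] V) := by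
  classical
  have : IsArtinianRing R := IsArtinianRing.of_finite k R
  have := semisimple_of_killed (R := R) ringQuot_killed
  obtain ⟨n, S, e, hS⟩ :=
    IsSemisimpleModule.exists_linearEquiv_fin_dfinsupp R (R ⧸ Ring.jacobson R)
  refine ⟨n, S, ?_, ?_⟩
  · rw [e.length_eq, (DFinsupp.linearEquivFunOnFintype (R := R) (M := fun i => S i)).length_eq,
      Module.length_pi_of_fintype]
    have : ∀ i, Module.length R (S i) = 1 := fun i =>
      have := hS i
      Module.length_eq_one R (S i)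
    simp
  intro X _ _ _
  have := semisimple_of_killed (R := R) (quot_killed (Q := X) (Ring.jacobson R))
  obtain ⟨m, S', e', hS'⟩ := IsSemisimpleModule.exists_linearEquiv_fin_dfinsupp R
    (X ⧸ (Ring.jacobson R • (⊤ : Submodule R X)))
  have hσ : ∀ i, ∃ j, Nonempty (S j ≃ₗ[R] S' i) := fun i =>
    have := hS' i
    simple_equiv_of_decomp S e hS (S' i)
  choose σ hσ using hσ
  refine ⟨fun j => (Finset.univ.filter fun i => σ i = j).card, ?_⟩
  intro V _ _ _ _ hV
  rw [← sum_fiber_count σ (fun j => Module.length k (S j →ₗ[R] V)),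
    ← hom_len_cover (k := k) (Ring.jacobson R • (⊤ : Submodule R X)).mkQ
      (Submodule.mkQ_surjective _) (by rw [Submodule.ker_mkQ]) hV,
    hom_len_equiv (k := k) e', ← (DFinsupp.lsum k (R := R) (M := fun i => S' i) (N := V)).length_eq,
    Module.length_pi_of_fintype]
  refine Finset.sum_congr rfl fun i _ => ?_
  exact (hom_len_equiv (k := k) (hσ i).some).symm

section Chain

variable {k : Type v} [CommRing k] {R : Type u} [Ring R] [Algebra k R]
variable {X P : ℕ → FM k R} (hS : ∀ n, IsSyz (X (n + 1)) (P n) (X n)) (B : ℕ)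

include hS

lemma bchain_extR (hR : ∀ i, i + 1 ≤ B → ExtZ R (X 0) R (i + 1)) :
    ∀ n i, i + n + 1 ≤ B → ExtZ R (X n) R (i + 1) := by
  intro n
  induction n with
  | zero => exact fun i hi => hR i hi
  | succ n ih =>
    intro i hi
    obtain ⟨hP, j, π, hj, hπ, hex, -⟩ := hS n
    exact extZ_contra hj hπ hex i (ih (i + 1) (by omega))

lemma bchain_ext0 (hR : ∀ i, i + 1 ≤ B → ExtZ R (X 0) R (i + 1))
    (hM : ∀ i, i + 1 ≤ B → ExtZ R (X 0) (X 0) (i + 1)) :
    ∀ m i, m ≤ i → i + 1 ≤ B → ExtZ R (X 0) (X m) (i + 1) := by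
  intro m
  induction m with
  | zero => exact fun i _ hi => hM i hi
  | succ m ih =>
    intro i hi hB
    obtain ⟨i, rfl⟩ : ∃ i', i = i' + 1 := ⟨i - 1, by omega⟩
    obtain ⟨hP, j, π, hj, hπ, hex, -⟩ := hS m
    exact extZ_cov hj hπ hex (i + 1) (extZ_proj (P := P m) _ (hR (i + 1) hB))
      (ih i (by omega) (by omega))

lemma bchain_ext (hR : ∀ i, i + 1 ≤ B → ExtZ R (X 0) R (i + 1))
    (hM : ∀ i, i + 1 ≤ B → ExtZ R (X 0) (X 0) (i + 1)) :
    ∀ n m i, m ≤ i + n → i + n + 1 ≤ B → ExtZ R (X n) (X m) (i + 1) := by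
  intro n
  induction n with
  | zero => exact fun m i h hB => bchain_ext0 hS B hR hM m i h hB
  | succ n ih =>
    intro m i hi hB
    obtain ⟨hP, j, π, hj, hπ, hex, -⟩ := hS n
    exact extZ_contra hj hπ hex i (ih m (i + 1) (by omega) (by omega))

lemma bchain_subsingleton (hR : ∀ i, i + 1 ≤ B → ExtZ R (X 0) R (i + 1)) :
    ∀ m, m ≤ B → Subsingleton (X (m + 1)) → Subsingleton (X 1) := by
  intro m
  induction m with
  | zero => exact fun _ => id
  | succ m ih =>
    intro hm h
    exact ih (by omega) ((hS m).subsingleton_of_proj ((hS (m + 1)).proj_of_subsingleton h)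
      (bchain_extR hS B hR m 0 (by omega)))

end Chain

section Final

variable {k : Type v} [CommRing k] [IsArtinianRing k] {R : Type u} [Ring R] [Algebra k R]
  [Module.Finite k R]

theorem projective_of_bchain (h3 : Ring.jacobson R ^ 3 = ⊥) {X P : ℕ → FM k R}
    (hS : ∀ n, IsSyz (X (n + 1)) (P n) (X n))
    (hR : ∀ i : ℕ, ((i + 1 : ℕ) : ℕ∞) ≤ 2 * Module.length R (R ⧸ Ring.jacobson R) + 2 →
      ExtZ R (X 0) R (i + 1))
    (hM : ∀ i : ℕ, ((i + 1 : ℕ) : ℕ∞) ≤ 2 * Module.length R (R ⧸ Ring.jacobson R) + 2 →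
      ExtZ R (X 0) (X 0) (i + 1)) :
    Module.Projective R (X 0) := by
  by_contra hnp
  have : IsArtinianRing R := IsArtinianRing.of_finite k R
  obtain ⟨r, L, hr, hL⟩ := exists_simple_family' R k
  rw [hr] at hR hM
  have hR' : ∀ i, i + 1 ≤ 2 * r + 2 → ExtZ R (X 0) R (i + 1) := fun i hi =>
    hR i (by exact_mod_cast hi)
  have hM' : ∀ i, i + 1 ≤ 2 * r + 2 → ExtZ R (X 0) (X 0) (i + 1) := fun i hi =>
    hM i (by exact_mod_cast hi)
  have hnt : ∀ m, m ≤ 2 * r + 2 → Nontrivial (X (m + 1)) := by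
    intro m hm
    by_contra hcon
    rw [not_nontrivial_iff_subsingleton] at hcon
    exact hnp ((hS 0).proj_of_subsingleton (bchain_subsingleton hS _ hR' m hm hcon))
  choose c hc using fun n => hL (X n)
  have hc' : ∀ n (V : FM k R), (∀ a ∈ Ring.jacobson R, ∀ x : V, a • x = 0) →
      hl k (R := R) (X n) V = ∑ j, c n j * hl k (R := R) (L j) V := by
    intro n V hV
    have h := hc n V hV
    rw [hl_spec] at h
    simp only [hl_spec] at h
    exact_mod_cast h
  have hsq : ∀ m, ∀ a ∈ Ring.jacobson R, ∀ b ∈ Ring.jacobson R, ∀ y : X (m + 1), a • b • y = 0 :=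
    fun m => (hS m).sq_zero h3
  have key : ∀ n m, m + 1 ≤ n → n + 1 ≤ 2 * r + 2 →
      hl k (R := R) (X n) ↥(Ring.jacobson R • (⊤ : Submodule R (X (m + 1)))) +
        hl k (R := R) (X n) (X (m + 1) ⧸ (Ring.jacobson R • (⊤ : Submodule R (X (m + 1))))) =
      hl k (R := R) (X n) (X (m + 1)) +
        hl k (R := R) (X (n + 1)) ↥(Ring.jacobson R • (⊤ : Submodule R (X (m + 1)))) ∧
      hl k (R := R) (X (n + 1)) (X (m + 1)) =
        hl k (R := R) (X (n + 1)) ↥(Ring.jacobson R • (⊤ : Submodule R (X (m + 1)))) := by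
    intro n m hnm hn
    obtain ⟨hP, j, π, hj, hπ, hex, hmin⟩ := hS n
    exact key_nat j π hπ hex hmin (hsq m)
      (extension_of_extZ hj hπ hex (bchain_ext hS _ hR' hM' n (m + 1) 0 (by omega) (by omega)))
  refine no_triangular' r (fun n => c (n + 1))
    (fun m j => hl k (R := R) (L j)
      (X (m + 1) ⧸ (Ring.jacobson R • (⊤ : Submodule R (X (m + 1))))))
    (fun m j => hl k (R := R) (L j) ↥(Ring.jacobson R • (⊤ : Submodule R (X (m + 1))))) ?_ ?_
  · intro n m hmn hn
    have e1 := hc' (n + 1) ⟨X (m + 1) ⧸ (Ring.jacobson R • (⊤ : Submodule R (X (m + 1))))⟩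
      (quot_killed _)
    have e2 := hc' (n + 1 + 1) ⟨↥(Ring.jacobson R • (⊤ : Submodule R (X (m + 1))))⟩
      (sub_killed (hsq m))
    change _ = ∑ j, c (n + 1) j * hl k (R := R) (L j)
      (X (m + 1) ⧸ (Ring.jacobson R • (⊤ : Submodule R (X (m + 1))))) at e1
    change _ = ∑ j, c (n + 1 + 1) j * hl k (R := R) (L j)
      ↥(Ring.jacobson R • (⊤ : Submodule R (X (m + 1)))) at e2
    rw [← e1, ← e2]
    have k1 := (key (n + 1) m (by omega) (by omega)).1
    have k2 := (key n m (by omega) (by omega)).2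
    change hl k (R := R) (X (n + 1))
      (X (m + 1) ⧸ (Ring.jacobson R • (⊤ : Submodule R (X (m + 1))))) =
      hl k (R := R) (X (n + 1 + 1)) ↥(Ring.jacobson R • (⊤ : Submodule R (X (m + 1))))
    omega
  · intro m hm
    have e1 := hc' (m + 1) ⟨X (m + 1) ⧸ (Ring.jacobson R • (⊤ : Submodule R (X (m + 1))))⟩
      (quot_killed _)
    have e2 := hc' (m + 1 + 1) ⟨↥(Ring.jacobson R • (⊤ : Submodule R (X (m + 1))))⟩
      (sub_killed (hsq m))
    change _ = ∑ j, c (m + 1) j * hl k (R := R) (L j)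
      (X (m + 1) ⧸ (Ring.jacobson R • (⊤ : Submodule R (X (m + 1))))) at e1
    change _ = ∑ j, c (m + 1 + 1) j * hl k (R := R) (L j)
      ↥(Ring.jacobson R • (⊤ : Submodule R (X (m + 1)))) at e2
    rw [← e1, ← e2]
    have k1 := (key (m + 1) m le_rfl (by omega)).1
    have := hnt m (by omega)
    have k2 := lt_nat (k := k) (R := R) (X := X (m + 1))
    change hl k (R := R) (X (m + 1 + 1)) ↥(Ring.jacobson R • (⊤ : Submodule R (X (m + 1)))) <
      hl k (R := R) (X (m + 1))
      (X (m + 1) ⧸ (Ring.jacobson R • (⊤ : Submodule R (X (m + 1)))))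
    omega

/-- Radical cube zero: vanishing of `Extⁱ(M, M ⊕ R)` for `1 ≤ i ≤ 2 ℓ(R/rad R) + 2` suffices. -/
theorem projective_of_bAR (h3 : Ring.jacobson R ^ 3 = ⊥) (M : FM k R)
    (hR : ∀ i : ℕ, ((i + 1 : ℕ) : ℕ∞) ≤ 2 * Module.length R (R ⧸ Ring.jacobson R) + 2 →
      ExtZ R M R (i + 1))
    (hM : ∀ i : ℕ, ((i + 1 : ℕ) : ℕ∞) ≤ 2 * Module.length R (R ⧸ Ring.jacobson R) + 2 →
      ExtZ R M M (i + 1)) :
    Module.Projective R M := by
  choose Y P hYP using fun X : FM k R => exists_syz X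
  let X : ℕ → FM k R := fun n => Nat.rec M (fun _ x => Y x) n
  exact projective_of_bchain (X := X) (P := fun n => P (X n)) h3 (fun n => hYP (X n)) hR hM

end Final

end Vale.Agent.Lib.P195
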