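import Vale.Agent.Lib.P195.Lengths

/-!
# P195: semisimple quotients and projective covers over Artinian rings
-/

universe u

namespace Vale.Agent.Lib.P195

open Submodule

variable {R : Type u} [Ring R]

/-- A module killed by the Jacobson radical of a semiprimary ring is semisimple. -/
lemma semisimple_of_killed [IsSemiprimaryRing R] {U : Type*} [AddCommGroup U] [Module R U]
    (h : ∀ a ∈ Ring.jacobson R, ∀ x : U, a • x = 0) : IsSemisimpleModule R U := by
  have hT : Module.IsTorsionBySet R U (Ring.jacobson R) := fun x a => h a.1 a.2 x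
  letI := hT.module
  exact hT.isSemisimpleModule_iff.mp inferInstance

lemma quot_killed {Q : Type*} [AddCommGroup Q] [Module R Q] (I : Ideal R) :
    ∀ a ∈ I, ∀ x : Q ⧸ (I • (⊤ : Submodule R Q)), a • x = 0 := by
  intro a ha x
  obtain ⟨x, rfl⟩ := (I • (⊤ : Submodule R Q)).mkQ_surjective x
  rw [← map_smul, Submodule.mkQ_apply, Submodule.Quotient.mk_eq_zero]
  exact Submodule.smul_mem_smul ha mem_top

/-- A superfluous submodule lies in the radical. -/
lemma le_jac_smul_of_superfluous [IsSemiprimaryRing R] {Q : Type*} [AddCommGroup Q] [Module R Q]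
    (K : Submodule R Q) (hK : ∀ C : Submodule R Q, C ⊔ K = ⊤ → C = ⊤) :
    K ≤ Ring.jacobson R • (⊤ : Submodule R Q) := by
  have h1 : K ≤ Module.jacobson R Q := by
    refine le_sInf fun m hm => ?_
    by_contra hne
    exact hm.1 (hK m (hm.2 _ (left_lt_sup.mpr hne)))
  refine h1.trans (Module.jacobson_le_of_eq_bot ?_)
  have := semisimple_of_killed (R := R) (quot_killed (Q := Q) (Ring.jacobson R))
  exact IsSemisimpleModule.jacobson_eq_bot R _

/-- Existence of projective covers of finitely generated modules over Artinian rings. -/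
theorem exists_projCover [IsArtinianRing R] (X : Type*) [AddCommGroup X] [Module R X]
    [Module.Finite R X] : ∃ (g : ℕ) (Q : Submodule R (Fin g → R)) (π : Q →ₗ[R] X),
      Module.Projective R Q ∧ Function.Surjective π ∧
        LinearMap.ker π ≤ Ring.jacobson R • (⊤ : Submodule R Q) := by
  obtain ⟨g, f, hf⟩ := Module.Finite.exists_fin' R X
  set K := LinearMap.ker f with hKdef
  obtain ⟨Q, hQ, hmin⟩ := IsArtinian.set_has_minimal
    {Q : Submodule R (Fin g → R) | Q ⊔ K = ⊤} ⟨⊤, by simp⟩
  have hQ' : Q ⊔ K = ⊤ := hQ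
  -- minimality in a convenient form
  have hmin' : ∀ Q' : Submodule R (Fin g → R), Q' ≤ Q → Q ≤ Q' ⊔ K → Q' = Q := by
    intro Q' h1 h2
    have h3 : Q' ⊔ K = ⊤ := by
      apply le_antisymm le_top
      rw [← hQ']
      exact sup_le h2 le_sup_right
    by_contra hne
    exact hmin Q' h3 (lt_of_le_of_ne h1 hne)
  let π : Q →ₗ[R] X := f.comp Q.subtype
  have hπ : Function.Surjective π := by
    intro x
    obtain ⟨p, rfl⟩ := hf x
    have hp : p ∈ Q ⊔ K := by rw [hQ']; exact mem_top
    obtain ⟨q, hq, κ, hκ, rfl⟩ := Submodule.mem_sup.mp hp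
    refine ⟨⟨q, hq⟩, ?_⟩
    change f q = f (q + κ)
    rw [map_add, LinearMap.mem_ker.mp hκ, add_zero]
  refine ⟨g, Q, π, ?_, hπ, ?_⟩
  · obtain ⟨h, hh⟩ := Module.projective_lifting_property π f hπ
    let h' : Q →ₗ[R] Q := h.comp Q.subtype
    have hsurj : Function.Surjective h' := by
      have h1 : Submodule.map Q.subtype (LinearMap.range h') = Q := by
        apply hmin'
        · rintro _ ⟨y, _, rfl⟩
          exact y.2
        · intro q hq
          have h2 : q = (h' ⟨q, hq⟩ : Fin g → R) + (q - (h' ⟨q, hq⟩ : Fin g → R)) := by abel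
          rw [h2]
          refine Submodule.add_mem_sup ⟨h' ⟨q, hq⟩, ⟨⟨q, hq⟩, rfl⟩, rfl⟩ ?_
          rw [hKdef, LinearMap.mem_ker, map_sub]
          have h3 : f (h' ⟨q, hq⟩ : Fin g → R) = f q := LinearMap.congr_fun hh q
          rw [h3, sub_self]
      intro q
      have hq : (q : Fin g → R) ∈ Submodule.map Q.subtype (LinearMap.range h') := by
        rw [h1]; exact q.2
      obtain ⟨y, ⟨z, rfl⟩, hy⟩ := hq
      exact ⟨z, Subtype.ext hy⟩
    have hbij := IsNoetherian.bijective_of_surjective_endomorphism h' hsurj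
    let e := LinearEquiv.ofBijective h' hbij
    refine Module.Projective.of_split Q.subtype (e.symm.toLinearMap.comp h) ?_
    ext1 q
    change e.symm (h' q) = q
    exact e.symm_apply_apply q
  · apply le_jac_smul_of_superfluous
    intro C hC
    have h1 : Submodule.map Q.subtype C = Q := by
      apply hmin'
      · rintro _ ⟨y, _, rfl⟩
        exact y.2
      · intro q hq
        have h2 : (⟨q, hq⟩ : Q) ∈ C ⊔ LinearMap.ker π := by rw [hC]; exact mem_top
        obtain ⟨c, hc, κ, hκ, hsum⟩ := Submodule.mem_sup.mp h2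
        have h3 : q = (c : Fin g → R) + (κ : Fin g → R) := (congrArg Subtype.val hsum).symm
        rw [h3]
        refine Submodule.add_mem_sup ⟨c, hc, rfl⟩ ?_
        exact LinearMap.mem_ker.mp hκ
    rw [eq_top_iff]
    intro q _
    have hq : (q : Fin g → R) ∈ Submodule.map Q.subtype C := by rw [h1]; exact q.2
    obtain ⟨y, hy, hyq⟩ := hq
    have : y = q := Subtype.ext hyq
    rwa [← this]

end Vale.Agent.Lib.P195
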