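import Vale.Agent.Lib.P195.ExtLemmas

/-!
# P195: dimension shifting along short exact sequences of modules with projective middle term
-/

open CategoryTheory Abelian

universe u

namespace Vale.Agent.Lib.P195

variable {R : Type u} [Ring R]

/-- Vanishing of `Extⁿ(A,B)`. -/
def ExtZ (R : Type u) [Ring R] (A B : Type u) [AddCommGroup A] [Module R A] [AddCommGroup B]
    [Module R B] (n : ℕ) : Prop :=
  ∀ e : Ext (ModuleCat.of R A) (ModuleCat.of R B) n, e = 0

section

variable {X Y P : Type u} [AddCommGroup X] [Module R X] [AddCommGroup Y] [Module R Y]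
  [AddCommGroup P] [Module R P]
variable (i : Y →ₗ[R] P) (π : P →ₗ[R] X)

/-- The short complex attached to a pair of composable maps with exactness in the middle. -/
noncomputable abbrev sesSC (hex : Function.Exact i π) : ShortComplex (ModuleCat.{u} R) :=
  ModuleCat.shortComplexOfCompEqZero i π hex.linearMap_comp_eq_zero

lemma sesSC_shortExact (hi : Function.Injective i) (hπ : Function.Surjective π)
    (hex : Function.Exact i π) : (sesSC i π hex).ShortExact :=
  ModuleCat.shortComplex_shortExact _ hex hi hπ

instance sesSC_proj [Module.Projective R P] (hex : Function.Exact i π) :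
    Projective (sesSC i π hex).X₂ :=
  ModuleCat.projective_of_categoryTheory_projective (ModuleCat.of R P)

lemma extZ_free {A : Type u} [AddCommGroup A] [Module R A] (p n : ℕ) (h : ExtZ R A R n) :
    ExtZ R A (Fin p → R) n := by
  apply ext_eq_zero_of_id_eq_sum
    (fun j : Fin p => ModuleCat.ofHom (LinearMap.proj (R := R) (φ := fun _ : Fin p => R) j))
    (fun j : Fin p => ModuleCat.ofHom (LinearMap.single R (fun _ : Fin p => R) j)) _ n h
  ext x
  simp

lemma extZ_proj {A : Type u} [AddCommGroup A] [Module R A] [Module.Finite R P]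
    [Module.Projective R P] (n : ℕ) (h : ExtZ R A R n) : ExtZ R A P n := by
  obtain ⟨p, f, hf⟩ := Module.Finite.exists_fin' R P
  obtain ⟨s, hs⟩ := Module.projective_lifting_property f LinearMap.id hf
  apply ext_eq_zero_of_id_eq_sum (fun _ : Unit => ModuleCat.ofHom s)
    (fun _ : Unit => ModuleCat.ofHom f) _ n (extZ_free p n h)
  ext x
  have := LinearMap.congr_fun hs x
  simpa using this.symm

variable {i π}

lemma extZ_contra [Module.Projective R P] (hi : Function.Injective i)
    (hπ : Function.Surjective π) (hex : Function.Exact i π) {B : Type u} [AddCommGroup B]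
    [Module R B] (n : ℕ) (h : ExtZ R X B (n + 1 + 1)) : ExtZ R Y B (n + 1) :=
  ext_contra_shift_down (sesSC_shortExact i π hi hπ hex) (ModuleCat.of R B) n h

lemma extZ_cov (hi : Function.Injective i)
    (hπ : Function.Surjective π) (hex : Function.Exact i π) {A : Type u} [AddCommGroup A]
    [Module R A] (n : ℕ) (h₂ : ExtZ R A P (n + 1)) (h : ExtZ R A X n) : ExtZ R A Y (n + 1) :=
  ext_cov_shift_up (sesSC_shortExact i π hi hπ hex) (ModuleCat.of R A) n h₂ h

lemma extension_of_extZ (hi : Function.Injective i) (hπ : Function.Surjective π)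
    (hex : Function.Exact i π) {N : Type u} [AddCommGroup N] [Module R N]
    (h : ExtZ R X N 1) (f : Y →ₗ[R] N) : ∃ g : P →ₗ[R] N, g.comp i = f := by
  obtain ⟨ψ, hψ⟩ := ext_one_extension (sesSC_shortExact i π hi hπ hex) (ModuleCat.of R N) h
    (ModuleCat.ofHom f)
  refine ⟨ψ.hom, ?_⟩
  have := congrArg ModuleCat.Hom.hom hψ
  simpa using this

end

end Vale.Agent.Lib.P195
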