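import Vale.Agent.Lib.P195.GenCover

/-!
# P195: lengths of `Hom` modules over the central Artinian ring `k`
-/

universe u

namespace Vale.Agent.Lib.P195

open Submodule

variable {k : Type*} [CommRing k] {R : Type u} [Ring R] [Algebra k R]

section Defs

variable {X Y : Type*} [AddCommGroup X] [Module R X] [AddCommGroup Y] [Module R Y]

/-- Precomposition as a `k`-linear map between `Hom` modules. -/
def preC (k : Type*) [CommRing k] [Algebra k R] (i : Y →ₗ[R] X) (N : Type*) [AddCommGroup N]
    [Module R N] [Module k N] [IsScalarTower k R N] : (X →ₗ[R] N) →ₗ[k] (Y →ₗ[R] N) where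
  toFun f := f.comp i
  map_add' _ _ := rfl
  map_smul' _ _ := rfl

/-- Postcomposition as a `k`-linear map between `Hom` modules. -/
def postC (k : Type*) [CommRing k] [Algebra k R] (A : Type*) [AddCommGroup A] [Module R A]
    {N N' : Type*} [AddCommGroup N] [Module R N] [Module k N] [IsScalarTower k R N]
    [AddCommGroup N'] [Module R N'] [Module k N'] [IsScalarTower k R N'] (j : N →ₗ[R] N') :
    (A →ₗ[R] N) →ₗ[k] (A →ₗ[R] N') where
  toFun f := j.comp f
  map_add' f g := by ext x; simp
  map_smul' c f := by ext x; simp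

end Defs

section Lemmas

variable {X Y P B : Type*} [AddCommGroup X] [Module R X] [AddCommGroup Y] [Module R Y]
  [AddCommGroup P] [Module R P]
  [AddCommGroup B] [Module R B] [Module k B] [IsScalarTower k R B]

lemma hom_len_contra (i : Y →ₗ[R] P) (π : P →ₗ[R] X) (hπ : Function.Surjective π)
    (hex : Function.Exact i π) (hext : ∀ f : Y →ₗ[R] B, ∃ g : P →ₗ[R] B, g.comp i = f) :
    Module.length k (P →ₗ[R] B) =
      Module.length k (X →ₗ[R] B) + Module.length k (Y →ₗ[R] B) := by
  apply Module.length_eq_add_of_exact (preC k π B) (preC k i B)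
  · intro f g hfg
    ext z
    obtain ⟨x, rfl⟩ := hπ z
    exact LinearMap.congr_fun hfg x
  · intro f
    obtain ⟨g, hg⟩ := hext f
    exact ⟨g, hg⟩
  · intro g
    constructor
    · intro hg
      have hg' : g.comp i = 0 := hg
      obtain ⟨f, hf⟩ := factor_of_surjective π hπ g (by
        intro v hv
        obtain ⟨y, rfl⟩ := (hex v).mp hv
        exact LinearMap.congr_fun hg' y)
      exact ⟨f, by ext x; exact hf x⟩
    · rintro ⟨f, rfl⟩
      ext y
      change f (π (i y)) = 0
      rw [hex.apply_apply_eq_zero, map_zero]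

lemma hom_len_cov [Module.Projective R P] (S : Submodule R B) :
    Module.length k (P →ₗ[R] B) =
      Module.length k (P →ₗ[R] S) + Module.length k (P →ₗ[R] B ⧸ S) := by
  apply Module.length_eq_add_of_exact (postC k P S.subtype) (postC k P S.mkQ)
  · intro f g hfg
    ext x
    exact LinearMap.congr_fun hfg x
  · intro f
    obtain ⟨g, hg⟩ := Module.projective_lifting_property S.mkQ f S.mkQ_surjective
    exact ⟨g, hg⟩
  · intro g
    constructor
    · intro hg
      have hg' : S.mkQ.comp g = 0 := hg
      refine ⟨g.codRestrict S (fun x => ?_), ?_⟩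
      · have := LinearMap.congr_fun hg' x
        rw [LinearMap.comp_apply, Submodule.mkQ_apply, LinearMap.zero_apply,
          Submodule.Quotient.mk_eq_zero] at this
        exact this
      · ext x
        rfl
    · rintro ⟨f, rfl⟩
      ext x
      change S.mkQ (f x : B) = 0
      rw [Submodule.mkQ_apply, Submodule.Quotient.mk_eq_zero]
      exact (f x).2

lemma map_mem_smul_top {I : Ideal R} {A C : Type*} [AddCommGroup A] [Module R A] [AddCommGroup C]
    [Module R C] (g : A →ₗ[R] C) {x : A} (hx : x ∈ I • (⊤ : Submodule R A)) :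
    g x ∈ I • (⊤ : Submodule R C) := by
  induction hx using Submodule.smul_induction_on' with
  | smul a ha n _ => rw [map_smul]; exact Submodule.smul_mem_smul ha mem_top
  | add x _ y _ hx hy => rw [map_add]; exact Submodule.add_mem _ hx hy

lemma eq_zero_of_mem_smul_top {I : Ideal R} {A : Type*} [AddCommGroup A] [Module R A]
    (hA : ∀ a ∈ I, ∀ x : A, a • x = 0) {x : A} (hx : x ∈ I • (⊤ : Submodule R A)) : x = 0 := by
  induction hx using Submodule.smul_induction_on' with
  | smul a ha n _ => exact hA a ha n
  | add x _ y _ hx hy => rw [hx, hy, add_zero]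

lemma hom_len_cover {I : Ideal R} (π : P →ₗ[R] X) (hπ : Function.Surjective π)
    (hker : LinearMap.ker π ≤ I • (⊤ : Submodule R P)) (hB : ∀ a ∈ I, ∀ x : B, a • x = 0) :
    Module.length k (X →ₗ[R] B) = Module.length k (P →ₗ[R] B) := by
  refine (LinearEquiv.ofBijective (preC k π B) ⟨?_, ?_⟩).length_eq
  · intro f g hfg
    ext z
    obtain ⟨x, rfl⟩ := hπ z
    exact LinearMap.congr_fun hfg x
  · intro g
    obtain ⟨f, hf⟩ := factor_of_surjective π hπ g (by
      intro v hv
      exact eq_zero_of_mem_smul_top hB (map_mem_smul_top g (hker (LinearMap.mem_ker.mpr hv))))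
    exact ⟨f, by ext x; exact hf x⟩

lemma hom_len_sub (S : Submodule R B) (h : ∀ f : Y →ₗ[R] B, ∀ y, f y ∈ S) :
    Module.length k (Y →ₗ[R] S) = Module.length k (Y →ₗ[R] B) := by
  refine (LinearEquiv.ofBijective (postC k Y S.subtype) ⟨?_, ?_⟩).length_eq
  · intro f g hfg
    ext x
    exact LinearMap.congr_fun hfg x
  · intro g
    exact ⟨g.codRestrict S (h g), by ext x; rfl⟩

lemma hom_len_equiv (e : X ≃ₗ[R] Y) :
    Module.length k (X →ₗ[R] B) = Module.length k (Y →ₗ[R] B) := by
  refine (LinearEquiv.ofBijective (preC k e.symm.toLinearMap B) ⟨?_, ?_⟩).length_eq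
  · intro f g hfg
    ext z
    have := LinearMap.congr_fun hfg (e z)
    simpa [preC] using this
  · intro g
    exact ⟨g.comp e.toLinearMap, by ext x; simp [preC]⟩

/-- `Hom` modules are finitely generated over `k`. -/
lemma hom_finite [IsNoetherianRing k] [Module.Finite R X] [Module.Finite k B] :
    Module.Finite k (X →ₗ[R] B) := by
  obtain ⟨n, π, hπ⟩ := Module.Finite.exists_fin' R X
  let ev : (X →ₗ[R] B) →ₗ[k] (Fin n → B) :=
    { toFun := fun f j => f (π (Pi.single j 1))
      map_add' := fun _ _ => rfl
      map_smul' := fun _ _ => rfl }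
  refine Module.Finite.of_injective ev ?_
  intro f g hfg
  ext x
  obtain ⟨v, rfl⟩ := hπ x
  rw [pi_apply_sum, map_sum, map_sum]
  refine Finset.sum_congr rfl fun j _ => ?_
  rw [map_smul, map_smul]
  congr 1
  exact congrFun hfg j

end Lemmas

section Strict

variable {X : Type*} [AddCommGroup X] [Module R X] [Module k X] [IsScalarTower k R X]

lemma hom_len_lt [IsArtinianRing k] [Module.Finite R X] [Module.Finite k X] (S : Submodule R X)
    (hS : S ≠ ⊤) : Module.length k (X →ₗ[R] S) < Module.length k (X →ₗ[R] X) := by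
  have := hom_finite (k := k) (R := R) (X := X) (B := X)
  have hinj : Function.Injective (postC k X S.subtype) := by
    intro f g hfg
    ext x
    exact LinearMap.congr_fun hfg x
  rw [(LinearEquiv.ofInjective _ hinj).length_eq,
    ← (Submodule.topEquiv (R := k) (M := X →ₗ[R] X)).length_eq]
  apply length_lt_of_lt
  rw [lt_top_iff_ne_top]
  intro htop
  apply hS
  have h1 : (LinearMap.id : X →ₗ[R] X) ∈ LinearMap.range (postC k X S.subtype) := by
    rw [htop]; exact mem_top
  obtain ⟨f, hf⟩ := h1
  rw [eq_top_iff]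
  intro x _
  have := LinearMap.congr_fun hf x
  change ((f x : S) : X) = x at this
  rw [← this]
  exact (f x).2

end Strict

end Vale.Agent.Lib.P195
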