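import Mathlib

/-!
# P195: an infinite triangular system cannot live in a space of finite rank
-/

namespace Vale.Agent.Lib.P195

lemma no_triangular (r : ℕ) (c α β : ℕ → Fin r → ℕ)
    (h0 : ∀ n m, m < n → ∑ j, c n j * α m j = ∑ j, c (n + 1) j * β m j)
    (h1 : ∀ m, ∑ j, c (m + 1) j * β m j < ∑ j, c m j * α m j) : False := by
  classical
  let a : ℕ → (Fin r ⊕ Fin r → ℚ) := fun n =>
    Sum.elim (fun j => (c n j : ℚ)) (fun j => (c (n + 1) j : ℚ))
  let b : ℕ → (Fin r ⊕ Fin r → ℚ) := fun m =>
    Sum.elim (fun j => (α m j : ℚ)) (fun j => -(β m j : ℚ))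
  have hB : ∀ n m, ∑ x, a n x * b m x =
      ((∑ j, c n j * α m j : ℕ) : ℚ) - ((∑ j, c (n + 1) j * β m j : ℕ) : ℚ) := by
    intro n m
    rw [Fintype.sum_sum_type]
    simp only [a, b, Sum.elim_inl, Sum.elim_inr, mul_neg, Finset.sum_neg_distrib]
    push_cast
    ring
  have hB0 : ∀ n m, m < n → ∑ x, a n x * b m x = 0 := by
    intro n m h
    rw [hB, h0 n m h, sub_self]
  have hB1 : ∀ m, ∑ x, a m x * b m x ≠ 0 := by
    intro m
    rw [hB]
    have : ((∑ j, c (m + 1) j * β m j : ℕ) : ℚ) < ((∑ j, c m j * α m j : ℕ) : ℚ) := by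
      exact_mod_cast h1 m
    intro h
    linarith
  have hli : LinearIndependent ℚ (fun n : Fin (2 * r + 1) => a n) := by
    rw [Fintype.linearIndependent_iff]
    intro g hg
    have key : ∀ m : Fin (2 * r + 1), ∑ n, g n * ∑ x, a n x * b m x = 0 := by
      intro m
      have h2 : ∑ x, (∑ n, g n • a n) x * b m x = 0 := by
        rw [hg]
        simp
      rw [← h2]
      simp only [Finset.sum_apply, Pi.smul_apply, smul_eq_mul, Finset.sum_mul, Finset.mul_sum]
      rw [Finset.sum_comm]
      refine Finset.sum_congr rfl fun x _ => Finset.sum_congr rfl fun n _ => ?_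
      ring
    have main : ∀ t : ℕ, ∀ m : Fin (2 * r + 1), (m : ℕ) = t → g m = 0 := by
      intro t
      induction t using Nat.strong_induction_on with
      | _ t ih =>
        intro m hm
        have h3 := key m
        rw [Finset.sum_eq_single m] at h3
        · exact (mul_eq_zero.mp h3).resolve_right (hB1 m)
        · intro n _ hne
          rcases lt_or_gt_of_ne (fun h => hne (Fin.ext h) : (n : ℕ) ≠ (m : ℕ)) with h | h
          · rw [ih n (by omega) n rfl, zero_mul]
          · rw [hB0 n m h, mul_zero]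
        · intro h
          exact absurd (Finset.mem_univ m) h
    exact fun i => main i i rfl
  have := hli.fintype_card_le_finrank
  rw [Module.finrank_fintype_fun_eq_card] at this
  simp at this
  omega

end Vale.Agent.Lib.P195
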