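import Vale.Agent.Lib.P195.GenSimple
import Vale.Agent.Lib.P195.GenLinAlg
import Vale.Agent.Lib.P195.GenExt

/-!
# P195: the Auslander-Reiten conjecture for Artin algebras with radical cube zero
-/

universe u v

namespace Vale.Agent.Lib.P195

open Submodule

section Nat

variable (k : Type v) [CommRing k] {R : Type u} [Ring R] [Algebra k R]

/-- The `k`-length of `Hom_R(A,B)` as a natural number. -/
noncomputable def hl (A B : Type*) [AddCommGroup A] [Module R A] [AddCommGroup B] [Module R B]
    [Module k B] [IsScalarTower k R B] : ℕ :=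
  (Module.length k (A →ₗ[R] B)).toNat

lemma hl_spec [IsArtinianRing k] (A B : Type*) [AddCommGroup A] [Module R A] [AddCommGroup B]
    [Module R B] [Module k B] [IsScalarTower k R B] [Module.Finite R A] [Module.Finite k B] :
    Module.length k (A →ₗ[R] B) = (hl k (R := R) A B : ℕ∞) := by
  have := hom_finite (k := k) (R := R) (X := A) (B := B)
  exact (ENat.natCast_toNat Module.length_ne_top).symm

variable {k}

lemma sub_killed {I : Ideal R} {B : Type*} [AddCommGroup B] [Module R B]
    (hB : ∀ a ∈ I, ∀ b ∈ I, ∀ x : B, a • b • x = 0) :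
    ∀ a ∈ I, ∀ x : ↥(I • (⊤ : Submodule R B)), a • x = 0 := by
  intro a ha x
  apply Subtype.ext
  exact smul_eq_zero_of_mem_smul_top hB x.2 ha

variable [IsArtinianRing k]

lemma key_nat {I : Ideal R} {Y P X B : Type*} [AddCommGroup Y] [Module R Y] [AddCommGroup P]
    [Module R P] [AddCommGroup X] [Module R X] [AddCommGroup B] [Module R B] [Module k B]
    [IsScalarTower k R B] [Module.Finite k B] [Module.Finite R Y] [Module.Finite R P]
    [Module.Finite R X] [Module.Projective R P]
    (i : Y →ₗ[R] P) (π : P →ₗ[R] X) (hπ : Function.Surjective π) (hex : Function.Exact i π)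
    (hmin : ∀ y, i y ∈ I • (⊤ : Submodule R P))
    (hB : ∀ a ∈ I, ∀ b ∈ I, ∀ x : B, a • b • x = 0)
    (hext : ∀ f : Y →ₗ[R] B, ∃ g : P →ₗ[R] B, g.comp i = f) :
    hl k (R := R) X ↥(I • (⊤ : Submodule R B)) + hl k (R := R) X (B ⧸ (I • (⊤ : Submodule R B))) =
      hl k (R := R) X B + hl k (R := R) Y ↥(I • (⊤ : Submodule R B)) ∧
    hl k (R := R) Y B = hl k (R := R) Y ↥(I • (⊤ : Submodule R B)) := by
  have hker : LinearMap.ker π ≤ I • (⊤ : Submodule R P) := by
    intro v hv
    obtain ⟨y, rfl⟩ := (hex v).mp (LinearMap.mem_ker.mp hv)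
    exact hmin y
  have e1 := hom_len_contra (k := k) i π hπ hex hext
  have e2 := hom_len_cov (k := k) (P := P) (I • (⊤ : Submodule R B))
  have e3 := hom_len_cover (k := k) π hπ hker (sub_killed hB)
  have e4 := hom_len_cover (k := k) π hπ hker (quot_killed (Q := B) I)
  have e5 := hom_len_sub (k := k) (Y := Y) (I • (⊤ : Submodule R B)) (by
    intro f y
    obtain ⟨g, rfl⟩ := hext f
    exact map_mem_smul_top g (hmin y))
  rw [hl_spec, hl_spec, hl_spec] at e1
  rw [hl_spec, hl_spec, hl_spec] at e2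
  rw [hl_spec, hl_spec] at e3 e4 e5
  norm_cast at e1 e2 e3 e4 e5
  omega

lemma lt_nat {X : Type*} [AddCommGroup X] [Module R X] [Module k X]
    [IsScalarTower k R X] [Module.Finite k X] [Module.Finite R X] [Nontrivial X] :
    hl k (R := R) X ↥(Ring.jacobson R • (⊤ : Submodule R X)) < hl k (R := R) X X := by
  have h := hom_len_lt (k := k) (Ring.jacobson R • (⊤ : Submodule R X)) (by
    intro htop
    have h1 := Submodule.FG.eq_bot_of_le_jacobson_smul (R := R) (N := (⊤ : Submodule R X))
      Module.Finite.fg_top htop.ge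
    exact top_ne_bot h1)
  rw [hl_spec, hl_spec] at h
  exact_mod_cast h

end Nat

section Bundled

variable (k : Type v) [CommRing k] (R : Type u) [Ring R] [Algebra k R]

/-- Bundled `R`-modules that are finitely generated over `k`. -/
structure FM where
  /-- the underlying type -/
  carrier : Type u
  [grp : AddCommGroup carrier]
  [modR : Module R carrier]
  [modk : Module k carrier]
  [tower : IsScalarTower k R carrier]
  [fin : Module.Finite k carrier]

attribute [instance] FM.grp FM.modR FM.modk FM.tower FM.fin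

instance : CoeSort (FM k R) (Type u) := ⟨FM.carrier⟩

instance (X : FM k R) : Module.Finite R X := Module.Finite.of_restrictScalars_finite k R _

variable {k R}

/-- `Y` is the kernel of a projective cover `P → X`. -/
def IsSyz (Y P X : FM k R) : Prop :=
  Module.Projective R P ∧ ∃ (i : Y →ₗ[R] P) (π : P →ₗ[R] X), Function.Injective i ∧
    Function.Surjective π ∧ Function.Exact i π ∧
    ∀ y, i y ∈ Ring.jacobson R • (⊤ : Submodule R P)

lemma exists_syz [IsArtinianRing k] [Module.Finite k R] (X : FM k R) :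
    ∃ Y P : FM k R, IsSyz Y P X := by
  have : IsArtinianRing R := IsArtinianRing.of_finite k R
  obtain ⟨g, Q, π, hQ, hπ, hker⟩ := exists_projCover (R := R) X
  refine ⟨⟨↥(LinearMap.ker π)⟩, ⟨↥Q⟩, hQ, (LinearMap.ker π).subtype, π,
    Submodule.subtype_injective _, hπ, LinearMap.exact_subtype_ker_map π, fun y => hker y.2⟩

lemma IsSyz.proj_of_subsingleton {Y P X : FM k R} (h : IsSyz Y P X) (hY : Subsingleton Y) :
    Module.Projective R X := by
  obtain ⟨hP, i, π, hi, hπ, hex, hmin⟩ := h
  have hinj : Function.Injective π := by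
    rw [injective_iff_map_eq_zero]
    intro v hv
    obtain ⟨y, rfl⟩ := (hex v).mp hv
    rw [Subsingleton.elim y 0, map_zero]
  exact Module.Projective.of_equiv (LinearEquiv.ofBijective π ⟨hinj, hπ⟩)

lemma IsSyz.subsingleton_of_proj {Y P X : FM k R} (h : IsSyz Y P X)
    (hY : Module.Projective R Y) (hX : ExtZ R X R 1) : Subsingleton Y := by
  obtain ⟨hP, i, π, hi, hπ, hex, hmin⟩ := h
  obtain ⟨g, hg⟩ := extension_of_extZ hi hπ hex (extZ_proj (P := Y) 1 hX) LinearMap.id
  have h1 : (⊤ : Submodule R Y) ≤ Ring.jacobson R • (⊤ : Submodule R Y) := by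
    intro y _
    have : g (i y) = y := LinearMap.congr_fun hg y
    rw [← this]
    exact map_mem_smul_top g (hmin y)
  have h2 := Submodule.FG.eq_bot_of_le_jacobson_smul (R := R) Module.Finite.fg_top h1
  exact (Submodule.subsingleton_iff R).mp (subsingleton_of_top_le_bot h2.le)

lemma IsSyz.sq_zero {Y P X : FM k R} (h : IsSyz Y P X) (h3 : Ring.jacobson R ^ 3 = ⊥) :
    ∀ a ∈ Ring.jacobson R, ∀ b ∈ Ring.jacobson R, ∀ y : Y, a • b • y = 0 := by
  obtain ⟨hP, i, π, hi, hπ, hex, hmin⟩ := h
  intro a ha b hb y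
  apply hi
  rw [map_zero, map_smul, map_smul]
  have key : ∀ z ∈ Ring.jacobson R • (⊤ : Submodule R P), a • b • z = 0 := by
    intro z hz
    induction hz using Submodule.smul_induction_on' with
    | smul c hc n _ =>
      have : a * b * c ∈ Ring.jacobson R ^ 3 := by
        rw [Submodule.pow_succ, Submodule.pow_succ, Submodule.pow_one]
        exact Submodule.mul_mem_mul (Submodule.mul_mem_mul ha hb) hc
      rw [h3] at this
      rw [smul_smul, smul_smul, (Submodule.mem_bot R).mp this, zero_smul]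
    | add x _ y _ hx hy => rw [smul_add, smul_add, hx, hy, add_zero]
  exact key _ (hmin y)

end Bundled

section Chain

variable {k : Type v} [CommRing k] {R : Type u} [Ring R] [Algebra k R]
variable {X P : ℕ → FM k R} (hS : ∀ n, IsSyz (X (n + 1)) (P n) (X n))

include hS

lemma chain_extR (hR : ∀ i, ExtZ R (X 0) R (i + 1)) : ∀ n i, ExtZ R (X n) R (i + 1) := by
  intro n
  induction n with
  | zero => exact hR
  | succ n ih =>
    intro i
    obtain ⟨hP, j, π, hj, hπ, hex, -⟩ := hS n
    exact extZ_contra hj hπ hex i (ih (i + 1))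

lemma chain_ext0 (hR : ∀ i, ExtZ R (X 0) R (i + 1)) (hM : ∀ i, ExtZ R (X 0) (X 0) (i + 1)) :
    ∀ m i, m ≤ i → ExtZ R (X 0) (X m) (i + 1) := by
  intro m
  induction m with
  | zero => exact fun i _ => hM i
  | succ m ih =>
    intro i hi
    obtain ⟨i, rfl⟩ : ∃ i', i = i' + 1 := ⟨i - 1, by omega⟩
    obtain ⟨hP, j, π, hj, hπ, hex, -⟩ := hS m
    exact extZ_cov hj hπ hex (i + 1) (extZ_proj (P := P m) _ (hR (i + 1))) (ih i (by omega))

lemma chain_ext (hR : ∀ i, ExtZ R (X 0) R (i + 1)) (hM : ∀ i, ExtZ R (X 0) (X 0) (i + 1)) :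
    ∀ n m i, m ≤ i + n → ExtZ R (X n) (X m) (i + 1) := by
  intro n
  induction n with
  | zero => exact fun m i h => chain_ext0 hS hR hM m i h
  | succ n ih =>
    intro m i hi
    obtain ⟨hP, j, π, hj, hπ, hex, -⟩ := hS n
    exact extZ_contra hj hπ hex i (ih m (i + 1) (by omega))

lemma chain_subsingleton (hR : ∀ i, ExtZ R (X 0) R (i + 1)) :
    ∀ m, Subsingleton (X (m + 1)) → Subsingleton (X 1) := by
  intro m
  induction m with
  | zero => exact id
  | succ m ih =>
    intro h
    exact ih ((hS m).subsingleton_of_proj ((hS (m + 1)).proj_of_subsingleton h)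
      (chain_extR hS hR m 0))

end Chain

section Final

variable {k : Type v} [CommRing k] [IsArtinianRing k] {R : Type u} [Ring R] [Algebra k R]
  [Module.Finite k R]

theorem projective_of_chain (h3 : Ring.jacobson R ^ 3 = ⊥) {X P : ℕ → FM k R}
    (hS : ∀ n, IsSyz (X (n + 1)) (P n) (X n))
    (hR : ∀ i, ExtZ R (X 0) R (i + 1)) (hM : ∀ i, ExtZ R (X 0) (X 0) (i + 1)) :
    Module.Projective R (X 0) := by
  by_contra hnp
  have : IsArtinianRing R := IsArtinianRing.of_finite k R
  have hnt : ∀ m, Nontrivial (X (m + 1)) := by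
    intro m
    by_contra hcon
    rw [not_nontrivial_iff_subsingleton] at hcon
    exact hnp ((hS 0).proj_of_subsingleton (chain_subsingleton hS hR m hcon))
  obtain ⟨r, L, hL⟩ := exists_simple_family R k
  choose c hc using fun n => hL (X n)
  have hc' : ∀ n (V : FM k R), (∀ a ∈ Ring.jacobson R, ∀ x : V, a • x = 0) →
      hl k (R := R) (X n) V = ∑ j, c n j * hl k (R := R) (L j) V := by
    intro n V hV
    have h := hc n V hV
    rw [hl_spec] at h
    simp only [hl_spec] at h
    exact_mod_cast h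
  have hsq : ∀ m, ∀ a ∈ Ring.jacobson R, ∀ b ∈ Ring.jacobson R, ∀ y : X (m + 1), a • b • y = 0 :=
    fun m => (hS m).sq_zero h3
  have key : ∀ n m, m + 1 ≤ n →
      hl k (R := R) (X n) ↥(Ring.jacobson R • (⊤ : Submodule R (X (m + 1)))) +
        hl k (R := R) (X n) (X (m + 1) ⧸ (Ring.jacobson R • (⊤ : Submodule R (X (m + 1))))) =
      hl k (R := R) (X n) (X (m + 1)) +
        hl k (R := R) (X (n + 1)) ↥(Ring.jacobson R • (⊤ : Submodule R (X (m + 1)))) ∧
      hl k (R := R) (X (n + 1)) (X (m + 1)) =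
        hl k (R := R) (X (n + 1)) ↥(Ring.jacobson R • (⊤ : Submodule R (X (m + 1)))) := by
    intro n m hnm
    obtain ⟨hP, j, π, hj, hπ, hex, hmin⟩ := hS n
    exact key_nat j π hπ hex hmin (hsq m)
      (extension_of_extZ hj hπ hex (chain_ext hS hR hM n (m + 1) 0 (by omega)))
  refine no_triangular r (fun n => c (n + 1))
    (fun m j => hl k (R := R) (L j)
      (X (m + 1) ⧸ (Ring.jacobson R • (⊤ : Submodule R (X (m + 1))))))
    (fun m j => hl k (R := R) (L j) ↥(Ring.jacobson R • (⊤ : Submodule R (X (m + 1))))) ?_ ?_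
  · intro n m hmn
    have e1 := hc' (n + 1) ⟨X (m + 1) ⧸ (Ring.jacobson R • (⊤ : Submodule R (X (m + 1))))⟩
      (quot_killed _)
    have e2 := hc' (n + 1 + 1) ⟨↥(Ring.jacobson R • (⊤ : Submodule R (X (m + 1))))⟩
      (sub_killed (hsq m))
    change _ = ∑ j, c (n + 1) j * hl k (R := R) (L j)
      (X (m + 1) ⧸ (Ring.jacobson R • (⊤ : Submodule R (X (m + 1))))) at e1
    change _ = ∑ j, c (n + 1 + 1) j * hl k (R := R) (L j)
      ↥(Ring.jacobson R • (⊤ : Submodule R (X (m + 1)))) at e2
    rw [← e1, ← e2]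
    have k1 := (key (n + 1) m (by omega)).1
    have k2 := (key n m (by omega)).2
    change hl k (R := R) (X (n + 1))
      (X (m + 1) ⧸ (Ring.jacobson R • (⊤ : Submodule R (X (m + 1))))) =
      hl k (R := R) (X (n + 1 + 1)) ↥(Ring.jacobson R • (⊤ : Submodule R (X (m + 1))))
    omega
  · intro m
    have e1 := hc' (m + 1) ⟨X (m + 1) ⧸ (Ring.jacobson R • (⊤ : Submodule R (X (m + 1))))⟩
      (quot_killed _)
    have e2 := hc' (m + 1 + 1) ⟨↥(Ring.jacobson R • (⊤ : Submodule R (X (m + 1))))⟩
      (sub_killed (hsq m))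
    change _ = ∑ j, c (m + 1) j * hl k (R := R) (L j)
      (X (m + 1) ⧸ (Ring.jacobson R • (⊤ : Submodule R (X (m + 1))))) at e1
    change _ = ∑ j, c (m + 1 + 1) j * hl k (R := R) (L j)
      ↥(Ring.jacobson R • (⊤ : Submodule R (X (m + 1)))) at e2
    rw [← e1, ← e2]
    have k1 := (key (m + 1) m le_rfl).1
    have := hnt m
    have k2 := lt_nat (k := k) (R := R) (X := X (m + 1))
    change hl k (R := R) (X (m + 1 + 1)) ↥(Ring.jacobson R • (⊤ : Submodule R (X (m + 1)))) <
      hl k (R := R) (X (m + 1))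
      (X (m + 1) ⧸ (Ring.jacobson R • (⊤ : Submodule R (X (m + 1)))))
    omega

/-- The Auslander-Reiten conjecture for Artin algebras with radical cube zero. -/
theorem projective_of_AR (h3 : Ring.jacobson R ^ 3 = ⊥) (M : FM k R)
    (hR : ∀ i, ExtZ R M R (i + 1)) (hM : ∀ i, ExtZ R M M (i + 1)) :
    Module.Projective R M := by
  choose Y P hYP using fun X : FM k R => exists_syz X
  let X : ℕ → FM k R := fun n => Nat.rec M (fun _ x => Y x) n
  exact projective_of_chain (X := X) (P := fun n => P (X n)) h3 (fun n => hYP (X n)) hR hM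

end Final

end Vale.Agent.Lib.P195
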