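import Vale.Agent.Lib.P195.GenHom

/-!
# P195: finitely many simple modules control `Hom` into modules killed by the radical
-/

universe u

namespace Vale.Agent.Lib.P195

open Submodule

variable {R : Type u} [Ring R]

lemma ringQuot_killed : ∀ a ∈ Ring.jacobson R, ∀ x : R ⧸ Ring.jacobson R, a • x = 0 := by
  intro a ha x
  obtain ⟨y, rfl⟩ := Submodule.mkQ_surjective (Ring.jacobson R) x
  rw [← map_smul, Submodule.mkQ_apply, Submodule.Quotient.mk_eq_zero]
  exact Ideal.mul_mem_right _ _ ha

/-- Every simple module is isomorphic to a member of a decomposition of `R ⧸ rad R`. -/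
lemma simple_equiv_of_decomp {n : ℕ} (S : Fin n → Submodule R (R ⧸ Ring.jacobson R))
    (e : (R ⧸ Ring.jacobson R) ≃ₗ[R] Π₀ i : Fin n, S i) (hS : ∀ i, IsSimpleModule R (S i))
    (L : Type*) [AddCommGroup L] [Module R L] [IsSimpleModule R L] :
    ∃ j, Nonempty (S j ≃ₗ[R] L) := by
  have := IsSimpleModule.nontrivial R L
  obtain ⟨x, hx⟩ := exists_ne (0 : L)
  have hker : Ring.jacobson R ≤ LinearMap.ker (LinearMap.toSpanSingleton R L x) := by
    intro a ha
    rw [LinearMap.mem_ker, LinearMap.toSpanSingleton_apply]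
    exact Module.mem_annihilator.mp (IsSemisimpleModule.jacobson_le_annihilator R L ha) x
  let f : (R ⧸ Ring.jacobson R) →ₗ[R] L :=
    (Ring.jacobson R).liftQ (LinearMap.toSpanSingleton R L x) hker
  have hf : f ((Ring.jacobson R).mkQ 1) = x := by
    change (Ring.jacobson R).liftQ (LinearMap.toSpanSingleton R L x) hker
      (Submodule.Quotient.mk 1) = x
    rw [Submodule.liftQ_apply, LinearMap.toSpanSingleton_apply, one_smul]
  let F : (Π₀ i : Fin n, S i) →ₗ[R] L := f.comp e.symm.toLinearMap
  have hF : F ≠ 0 := by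
    intro h0
    apply hx
    have := LinearMap.congr_fun h0 (e ((Ring.jacobson R).mkQ 1))
    change f (e.symm (e ((Ring.jacobson R).mkQ 1))) = 0 at this
    rw [e.symm_apply_apply, hf] at this
    exact this
  have : ∃ j, F.comp (DFinsupp.lsingle j) ≠ 0 := by
    by_contra hcon
    push Not at hcon
    apply hF
    apply DFinsupp.lhom_ext'
    intro i
    rw [hcon i, LinearMap.zero_comp]
  obtain ⟨j, hj⟩ := this
  have := hS j
  exact ⟨j, ⟨LinearEquiv.ofBijective _ (LinearMap.bijective_of_ne_zero hj)⟩⟩

lemma sum_fiber_count {m n : ℕ} (σ : Fin m → Fin n) (F : Fin n → ℕ∞) :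
    ∑ i, F (σ i) = ∑ j, ((Finset.univ.filter fun i => σ i = j).card : ℕ∞) * F j := by
  rw [← Finset.sum_fiberwise Finset.univ σ (fun i => F (σ i))]
  refine Finset.sum_congr rfl fun j _ => ?_
  rw [Finset.sum_congr rfl (g := fun _ => F j) (fun i hi => by
    rw [(Finset.mem_filter.mp hi).2]), Finset.sum_const, nsmul_eq_mul]

variable (k : Type*) [CommRing k] [IsArtinianRing k] (R) [Algebra k R] [Module.Finite k R]

/-- There is a finite family of modules `L j` such that, for every finitely generated module `X`,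
the lengths of `Hom(X,V)`, for `V` killed by the radical, are a fixed natural combination of the
lengths of `Hom(L j, V)`. -/
theorem exists_simple_family :
    ∃ (r : ℕ) (L : Fin r → Submodule R (R ⧸ Ring.jacobson R)),
      ∀ (X : Type u) [AddCommGroup X] [Module R X] [Module.Finite R X], ∃ c : Fin r → ℕ,
        ∀ (V : Type u) [AddCommGroup V] [Module R V] [Module k V] [IsScalarTower k R V],
          (∀ a ∈ Ring.jacobson R, ∀ x : V, a • x = 0) →
          Module.length k (X →ₗ[R] V) = ∑ j, (c j : ℕ∞) * Module.length k (L j →ₗ[R] V) := by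
  classical
  have : IsArtinianRing R := IsArtinianRing.of_finite k R
  have := semisimple_of_killed (R := R) ringQuot_killed
  obtain ⟨n, S, e, hS⟩ :=
    IsSemisimpleModule.exists_linearEquiv_fin_dfinsupp R (R ⧸ Ring.jacobson R)
  refine ⟨n, S, ?_⟩
  intro X _ _ _
  have := semisimple_of_killed (R := R) (quot_killed (Q := X) (Ring.jacobson R))
  obtain ⟨m, S', e', hS'⟩ := IsSemisimpleModule.exists_linearEquiv_fin_dfinsupp R
    (X ⧸ (Ring.jacobson R • (⊤ : Submodule R X)))
  have hσ : ∀ i, ∃ j, Nonempty (S j ≃ₗ[R] S' i) := fun i =>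
    have := hS' i
    simple_equiv_of_decomp S e hS (S' i)
  choose σ hσ using hσ
  refine ⟨fun j => (Finset.univ.filter fun i => σ i = j).card, ?_⟩
  intro V _ _ _ _ hV
  rw [← sum_fiber_count σ (fun j => Module.length k (S j →ₗ[R] V)),
    ← hom_len_cover (k := k) (Ring.jacobson R • (⊤ : Submodule R X)).mkQ
      (Submodule.mkQ_surjective _) (by rw [Submodule.ker_mkQ]) hV,
    hom_len_equiv (k := k) e', ← (DFinsupp.lsum k (R := R) (M := fun i => S' i) (N := V)).length_eq,
    Module.length_pi_of_fintype]
  refine Finset.sum_congr rfl fun i _ => ?_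
  exact (hom_len_equiv (k := k) (hσ i).some).symm

end Vale.Agent.Lib.P195
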