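import Vale.Agent.Lib.P195.Counting

/-!
# P195: self-injectivity by counting (the nondegenerate case)
-/

universe u

namespace Vale.Agent.Lib.P195

open Submodule

variable {k : Type*} [CommRing k] {R : Type u} [Ring R] [Algebra k R] {J : Ideal R}

section HomLen

variable {X Y Z : Type*} [AddCommGroup X] [Module R X] [AddCommGroup Y] [Module R Y]
  [AddCommGroup Z] [Module R Z]

/-- Precomposition as a `k`-linear map between `Hom` modules. -/
def preComp (k : Type*) [CommRing k] [Algebra k R] (i : Y →ₗ[R] X) (N : Type*) [AddCommGroup N]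
    [Module R N] [Module k N] [IsScalarTower k R N] : (X →ₗ[R] N) →ₗ[k] (Y →ₗ[R] N) where
  toFun f := f.comp i
  map_add' _ _ := rfl
  map_smul' _ _ := rfl

@[simp] lemma preComp_apply (i : Y →ₗ[R] X) (N : Type*) [AddCommGroup N]
    [Module R N] [Module k N] [IsScalarTower k R N] (f : X →ₗ[R] N) :
    preComp k i N f = f.comp i := rfl

lemma hom_length_exact (i : Y →ₗ[R] X) (π : X →ₗ[R] Z) (hπ : Function.Surjective π)
    (hex : Function.Exact i π) :
    Module.length k (X →ₗ[R] R) = Module.length k (Z →ₗ[R] R) +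
      Module.length k (LinearMap.range (preComp k i R)) := by
  apply Module.length_eq_add_of_exact (preComp k π R) (preComp k i R).rangeRestrict
  · intro f g hfg
    ext z
    obtain ⟨x, rfl⟩ := hπ z
    exact LinearMap.congr_fun hfg x
  · exact LinearMap.surjective_rangeRestrict _
  · intro g
    constructor
    · intro hg
      have hg' : g.comp i = 0 := congrArg Subtype.val hg
      obtain ⟨f, hf⟩ := factor_of_surjective π hπ g (by
        intro v hv
        obtain ⟨y, rfl⟩ := (hex v).mp hv
        exact LinearMap.congr_fun hg' y)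
      exact ⟨f, by ext x; exact hf x⟩
    · rintro ⟨f, rfl⟩
      apply Subtype.ext
      ext y
      change f (π (i y)) = 0
      rw [hex.apply_apply_eq_zero, map_zero]

/-- Evaluation of homomorphisms on the images of the standard basis. -/
def evGen (k : Type*) [CommRing k] [Algebra k R] {n : ℕ} (π : (Fin n → R) →ₗ[R] X) :
    (X →ₗ[R] R) →ₗ[k] (Fin n → R) where
  toFun f := fun j => f (π (Pi.single j 1))
  map_add' _ _ := rfl
  map_smul' _ _ := rfl

lemma evGen_injective {n : ℕ} (π : (Fin n → R) →ₗ[R] X) (hπ : Function.Surjective π) :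
    Function.Injective (evGen k π) := by
  intro f g hfg
  ext x
  obtain ⟨v, rfl⟩ := hπ x
  rw [pi_apply_sum, map_sum, map_sum]
  refine Finset.sum_congr rfl fun j _ => ?_
  rw [map_smul, map_smul]
  congr 1
  exact congrFun hfg j

/-- For a module killed by `J`, the dual is no longer than the module, if the socle of `R` is
no longer than `R ⧸ J`. -/
lemma hom_le_of_killed [Module k X] [IsScalarTower k R X] [Module.Finite R X]
    (hJ : ShortLocal J)
    (hnd : Module.length k ↥(soc hJ R) ≤ Module.length k (R ⧸ J))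
    (hX : ∀ a ∈ J, ∀ x : X, a • x = 0) :
    Module.length k (X →ₗ[R] R) ≤ Module.length k X := by
  obtain ⟨n, π, hπ⟩ := exists_minCover hJ X
  have h1 := hπ.length_eq (k := k) hJ
  have h2 : LinearMap.range (evGen k π) ≤
      Submodule.pi Set.univ (fun _ : Fin n => (soc hJ R).restrictScalars k) := by
    rintro _ ⟨f, rfl⟩ j _
    refine (Submodule.restrictScalars_mem k (soc hJ R) _).mpr ?_
    intro a ha
    change a • f (π (Pi.single j 1)) = 0
    rw [← map_smul, hX a ha, map_zero]
  have h3 := length_le_of_le h2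
  rw [length_pi_sub, length_restrictScalars,
    ← (LinearEquiv.ofInjective _ (evGen_injective (k := k) π hπ.surj)).length_eq] at h3
  calc Module.length k (X →ₗ[R] R) ≤ n * Module.length k ↥(soc hJ R) := h3
    _ ≤ n * Module.length k (R ⧸ J) := by gcongr
    _ ≤ Module.length k X := by rw [h1]; exact le_self_add

/-- Nakayama's lemma (as `J³ = 0`). -/
lemma exists_not_mem_smul_top' (hJ : ShortLocal J) [Nontrivial X] :
    ∃ x : X, x ∉ J • (⊤ : Submodule R X) := by
  by_contra h
  push Not at h
  have K2 : ∀ y ∈ J • (⊤ : Submodule R X), ∀ a ∈ J, ∀ b ∈ J, a • b • y = 0 := by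
    intro y hy a ha b hb
    induction hy using Submodule.smul_induction_on' with
    | smul c hc n _ => rw [smul_smul, smul_smul, hJ.cube a ha b hb c hc, zero_smul]
    | add x _ y _ hx hy => rw [smul_add, smul_add, hx, hy, add_zero]
  obtain ⟨x, hx⟩ := exists_not_mem_smul_top (J := J) (X := X)
    (fun a ha b hb x => K2 x (h x) a ha b hb)
  exact hx (h x)

end HomLen

section Induction

variable [IsArtinianRing k]

/-- The dual of a finitely generated module is no longer than the module, if the socle of `R` is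
no longer than `R ⧸ J`. -/
lemma hom_le_aux (hJ : ShortLocal J)
    (hnd : Module.length k ↥(soc hJ R) ≤ Module.length k (R ⧸ J)) :
    ∀ n : ℕ, ∀ (X : Type u) [AddCommGroup X] [Module R X] [Module k X] [IsScalarTower k R X]
      [Module.Finite k X], Module.length k X = n → Module.length k (X →ₗ[R] R) ≤ n := by
  intro n
  induction n using Nat.strong_induction_on with
  | _ n ih =>
    intro X _ _ _ _ _ hX
    rcases subsingleton_or_nontrivial X with hsub | hnt
    · have : Subsingleton (X →ₗ[R] R) := ⟨fun f g => by ext x; rw [Subsingleton.elim x 0]; simp⟩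
      rw [Module.length_eq_zero]
      exact zero_le
    · set V : Submodule R X := J • (⊤ : Submodule R X) with hV
      have h1 : Module.length k X = Module.length k ↥V + Module.length k (X ⧸ V) :=
        length_sub_add_quot' V
      have hVne : V ≠ ⊤ := by
        intro hVt
        obtain ⟨x, hx⟩ := exists_not_mem_smul_top' (X := X) hJ
        apply hx
        rw [← hV, hVt]
        exact mem_top
      have hnt' : Nontrivial (X ⧸ V) := Submodule.Quotient.nontrivial_iff.mpr hVne
      have h2 : 0 < Module.length k (X ⧸ V) := Module.length_pos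
      have f1 : Module.length k ↥V ≠ ⊤ := Module.length_ne_top
      have f2 : Module.length k (X ⧸ V) ≠ ⊤ := Module.length_ne_top
      obtain ⟨a, ha⟩ := ENat.ne_top_iff_exists.mp f1
      obtain ⟨b, hb⟩ := ENat.ne_top_iff_exists.mp f2
      have hab : n = a + b := by
        rw [hX, ← ha, ← hb] at h1
        exact_mod_cast h1
      have hb0 : 0 < b := by
        rw [← hb] at h2
        exact_mod_cast h2
      have h3 : Module.length k (↥V →ₗ[R] R) ≤ a := ih a (by omega) ↥V ha.symm
      have : Module.Finite R (X ⧸ V) := Module.Finite.of_restrictScalars_finite k R _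
      have h4 : Module.length k ((X ⧸ V) →ₗ[R] R) ≤ Module.length k (X ⧸ V) := by
        apply hom_le_of_killed hJ hnd
        intro c hc x
        obtain ⟨x, rfl⟩ := V.mkQ_surjective x
        rw [← map_smul, Submodule.mkQ_apply, Submodule.Quotient.mk_eq_zero]
        exact Submodule.smul_mem_smul hc mem_top
      have h5 := hom_length_exact (k := k) V.subtype V.mkQ V.mkQ_surjective
        (LinearMap.exact_subtype_mkQ V)
      have h6 : Module.length k (LinearMap.range (preComp k V.subtype R)) ≤
          Module.length k (↥V →ₗ[R] R) :=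
        Module.length_le_of_injective (Submodule.subtype _) (Submodule.subtype_injective _)
      rw [h5, hab]
      push_cast
      rw [add_comm]
      exact add_le_add (h6.trans h3) (h4.trans hb.symm.le)

lemma hom_le (hJ : ShortLocal J)
    (hnd : Module.length k ↥(soc hJ R) ≤ Module.length k (R ⧸ J))
    (X : Type u) [AddCommGroup X] [Module R X] [Module k X] [IsScalarTower k R X]
    [Module.Finite k X] : Module.length k (X →ₗ[R] R) ≤ Module.length k X := by
  obtain ⟨n, hn⟩ := ENat.ne_top_iff_exists.mp (Module.length_ne_top (R := k) (M := X))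
  rw [← hn]
  exact hom_le_aux hJ hnd n X hn.symm

omit [IsArtinianRing k] in
lemma eq_top_of_length_eq {M : Type*} [AddCommGroup M] [Module k M] (A : Submodule k M)
    (hfin : Module.length k M ≠ ⊤) (h : Module.length k M ≤ Module.length k A) : A = ⊤ := by
  have h1 := length_sub_add_quot A
  have hA : Module.length k A ≠ ⊤ := by
    intro hA
    rw [hA, top_add] at h1
    exact hfin h1
  have h2 : Module.length k (M ⧸ A) = 0 := by
    obtain ⟨a, ha⟩ := ENat.ne_top_iff_exists.mp hA
    obtain ⟨m, hm⟩ := ENat.ne_top_iff_exists.mp hfin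
    have hq : Module.length k (M ⧸ A) ≠ ⊤ := by
      intro hq
      rw [hq, add_top] at h1
      exact hfin h1
    obtain ⟨b, hb⟩ := ENat.ne_top_iff_exists.mp hq
    rw [← ha, ← hm] at h
    rw [← ha, ← hm, ← hb] at h1
    rw [← hb]
    norm_cast at h h1 ⊢
    omega
  rw [Module.length_eq_zero_iff] at h2
  exact Submodule.Quotient.subsingleton_iff.mp h2

lemma inj_step (hJ : ShortLocal J)
    (hnd : Module.length k ↥(soc hJ R) ≤ Module.length k (R ⧸ J))
    {X Y Z : Type u} [AddCommGroup X] [Module R X] [Module k X] [IsScalarTower k R X]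
    [Module.Finite k X] [AddCommGroup Y] [Module R Y] [Module k Y] [IsScalarTower k R Y]
    [Module.Finite k Y] [AddCommGroup Z] [Module R Z] [Module k Z] [IsScalarTower k R Z]
    [Module.Finite k Z] (i : Y →ₗ[R] X) (π : X →ₗ[R] Z) (hi : Function.Injective i)
    (hπ : Function.Surjective π) (hex : Function.Exact i π)
    (hX : Module.length k X ≤ Module.length k (X →ₗ[R] R)) :
    (∀ f : Y →ₗ[R] R, ∃ g : X →ₗ[R] R, g.comp i = f) ∧
      Module.length k Z ≤ Module.length k (Z →ₗ[R] R) := by
  have h1 : Module.length k X = Module.length k Y + Module.length k Z :=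
    length_exact_R i π hi hπ hex
  have h2 := hom_length_exact (k := k) i π hπ hex
  have h3 := hom_le (k := k) hJ hnd Y
  have h4 := hom_le (k := k) hJ hnd Z
  have h5 : Module.length k (LinearMap.range (preComp k i R)) ≤ Module.length k (Y →ₗ[R] R) :=
    Module.length_le_of_injective (Submodule.subtype _) (Submodule.subtype_injective _)
  have fY : Module.length k Y ≠ ⊤ := Module.length_ne_top
  have fZ : Module.length k Z ≠ ⊤ := Module.length_ne_top
  obtain ⟨y, hy⟩ := ENat.ne_top_iff_exists.mp fY
  obtain ⟨z, hz⟩ := ENat.ne_top_iff_exists.mp fZ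
  have fY' : Module.length k (Y →ₗ[R] R) ≠ ⊤ := ne_top_of_le_ne_top fY h3
  have fZ' : Module.length k (Z →ₗ[R] R) ≠ ⊤ := ne_top_of_le_ne_top fZ h4
  have fr : Module.length k (LinearMap.range (preComp k i R)) ≠ ⊤ := ne_top_of_le_ne_top fY' h5
  obtain ⟨y', hy'⟩ := ENat.ne_top_iff_exists.mp fY'
  obtain ⟨z', hz'⟩ := ENat.ne_top_iff_exists.mp fZ'
  obtain ⟨r, hr⟩ := ENat.ne_top_iff_exists.mp fr
  have htop : LinearMap.range (preComp k i R) = ⊤ := by
    apply eq_top_of_length_eq _ fY'
    rw [h1, h2, ← hy, ← hz, ← hz', ← hr] at hX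
    rw [← hy, ← hy'] at h3
    rw [← hz, ← hz'] at h4
    rw [← hr, ← hy'] at h5 ⊢
    norm_cast at hX h3 h4 h5 ⊢
    omega
  refine ⟨fun f => ?_, ?_⟩
  · have : f ∈ LinearMap.range (preComp k i R) := by rw [htop]; exact mem_top
    obtain ⟨g, hg⟩ := this
    exact ⟨g, hg⟩
  · rw [h1, h2, ← hy, ← hz, ← hz', ← hr] at hX
    rw [← hy, ← hy'] at h3
    rw [← hr, ← hy'] at h5
    rw [← hz, ← hz']
    norm_cast at hX h3 h5 ⊢
    omega

omit [IsArtinianRing k] in
lemma free_le_hom (n : ℕ) :
    Module.length k (Fin n → R) ≤ Module.length k ((Fin n → R) →ₗ[R] R) := by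
  classical
  apply Module.length_le_of_surjective (evGen k (LinearMap.id : (Fin n → R) →ₗ[R] (Fin n → R)))
  intro r
  refine ⟨Fintype.linearCombination R r, ?_⟩
  ext j
  change Fintype.linearCombination R r (Pi.single j 1) = r j
  rw [Fintype.linearCombination_apply]
  simp [Pi.single_apply]

/-- `R` is injective relative to finitely generated modules, if its socle is no longer than
`R ⧸ J`. -/
lemma inj_R [Module.Finite k R] (hJ : ShortLocal J)
    (hnd : Module.length k ↥(soc hJ R) ≤ Module.length k (R ⧸ J))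
    {X Y : Type u} [AddCommGroup X] [Module R X] [Module k X] [IsScalarTower k R X]
    [Module.Finite k X] [AddCommGroup Y] [Module R Y] [Module k Y] [IsScalarTower k R Y]
    [Module.Finite k Y] (i : Y →ₗ[R] X) (hi : Function.Injective i) (f : Y →ₗ[R] R) :
    ∃ g : X →ₗ[R] R, g.comp i = f := by
  have : Module.Finite R X := Module.Finite.of_restrictScalars_finite k R _
  obtain ⟨n, π, hπ⟩ := Module.Finite.exists_fin' R X
  have h1 := (inj_step (k := k) hJ hnd (LinearMap.ker π).subtype π
    (Submodule.subtype_injective _) hπ (LinearMap.exact_subtype_ker_map π) (free_le_hom n)).2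
  exact (inj_step (k := k) hJ hnd i (LinearMap.range i).mkQ hi (Submodule.mkQ_surjective _)
    (LinearMap.exact_map_mkQ_range i) h1).1 f

end Induction

section Killed

variable {T : Type*} [AddCommGroup T] [Module R T] [Module k T] [IsScalarTower k R T]

lemma IsMinCover.length_of_killed (hJ : ShortLocal J) {n : ℕ} {π : (Fin n → R) →ₗ[R] T}
    (hπ : IsMinCover J π) (hT : ∀ a ∈ J, ∀ t : T, a • t = 0) :
    Module.length k T = n * Module.length k (R ⧸ J) := by
  have h0 : J • (⊤ : Submodule R T) = ⊥ := by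
    rw [eq_bot_iff, Submodule.smul_le]
    intro a ha t _
    rw [hT a ha t]
    exact zero_mem _
  rw [hπ.length_eq (k := k) hJ, h0]
  have : Module.length k ↥(⊥ : Submodule R T) = 0 := Module.length_eq_zero
  rw [this, add_zero]

lemma exists_cyclic_gen (hJ : ShortLocal J) [Module.Finite R T]
    (hT : ∀ a ∈ J, ∀ t : T, a • t = 0) (hfin : Module.length k (R ⧸ J) ≠ ⊤)
    (hd : Module.length k (R ⧸ J) ≠ 0)
    (hlen : Module.length k T = Module.length k (R ⧸ J)) :
    ∃ z : T, (∀ t : T, ∃ c : R, t = c • z) ∧ (∀ c : R, c • z = 0 → c ∈ J) := by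
  classical
  obtain ⟨n, π, hπ⟩ := exists_minCover hJ T
  have h1 := hπ.length_of_killed (k := k) hJ hT
  obtain ⟨d, hd'⟩ := ENat.ne_top_iff_exists.mp hfin
  have hn : n = 1 := by
    rw [hlen, ← hd'] at h1
    rw [← hd'] at hd
    norm_cast at h1 hd
    have : 1 * d = n * d := by rw [one_mul]; exact h1
    exact (Nat.eq_of_mul_eq_mul_right (Nat.pos_of_ne_zero hd) this).symm
  subst hn
  refine ⟨π (Pi.single 0 1), fun t => ?_, fun c hc => ?_⟩
  · obtain ⟨v, rfl⟩ := hπ.surj t
    exact ⟨v 0, by rw [pi_apply_sum π v]; simp⟩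
  · have h2 : π (c • Pi.single 0 1) = 0 := by rw [map_smul, hc]
    have := hπ.min _ h2 0
    simpa using this

end Killed

section Backward

variable [IsArtinianRing k] [Module.Finite k R]

lemma exists_smul_mem_soc (hJ : ShortLocal J) {X : Type*} [AddCommGroup X] [Module R X]
    (hsq : ∀ a ∈ J, ∀ b ∈ J, ∀ x : X, a • b • x = 0) {x : X} (hx : x ≠ 0) :
    ∃ r : R, r • x ≠ 0 ∧ r • x ∈ soc hJ X := by
  by_cases h : ∀ a ∈ J, a • x = 0
  · exact ⟨1, by rwa [one_smul], by rw [one_smul]; exact h⟩
  · push Not at h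
    obtain ⟨a, ha, hax⟩ := h
    exact ⟨a, hax, fun b hb => hsq b hb a ha x⟩

/-- Construction of a minimal embedding into a free module (cosyzygy step). -/
lemma backward (hJ : ShortLocal J)
    (hnd : Module.length k ↥(soc hJ R) ≤ Module.length k (R ⧸ J))
    (z0 : R) (hz0 : z0 ∈ Jsq J) (hz0ne : z0 ≠ 0) (hgen : ∀ z ∈ Jsq J, ∃ c : R, z = c * z0)
    (hann : ∀ c : R, c * z0 = 0 → c ∈ J)
    {X : Type u} [AddCommGroup X] [Module R X] [Module k X] [IsScalarTower k R X]
    [Module.Finite k X] [Nontrivial X]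
    (hsq : ∀ a ∈ J, ∀ b ∈ J, ∀ x : X, a • b • x = 0) :
    ∃ (m : ℕ) (φ : X →ₗ[R] (Fin m → R)), 0 < m ∧ Function.Injective φ ∧
      (∀ x l, φ x l ∈ J) ∧ (∀ v : Fin m → R, (∀ l, v l ∈ Jsq J) → ∃ x, φ x = v) := by
  classical
  set T : Submodule R X := soc hJ X with hT
  have : Module.Finite R ↥T := Module.Finite.of_restrictScalars_finite k R _
  obtain ⟨m, πT, hπT⟩ := exists_minCover hJ ↥T
  have hψ : ∀ l : Fin m, ∃ ψ : ↥T →ₗ[R] R, ∀ v, ψ (πT v) = v l * z0 := by
    intro l
    obtain ⟨ψ, hψ⟩ := hπT.exists_lift (Pi.single l z0 : Fin m → R) (by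
      intro a ha j
      by_cases hj : j = l
      · subst hj
        rw [Pi.single_eq_same, smul_eq_mul]
        exact mul_Jsq_eq_zero hJ ha hz0
      · rw [Pi.single_eq_of_ne hj, smul_zero])
    refine ⟨ψ, fun v => ?_⟩
    rw [hψ]
    simp [Pi.single_apply]
  choose ψ hψ using hψ
  have hφ : ∀ l : Fin m, ∃ g : X →ₗ[R] R, g.comp T.subtype = ψ l := fun l =>
    inj_R (k := k) hJ hnd T.subtype (Submodule.subtype_injective _) (ψ l)
  choose φ hφ using hφ
  have hφ' : ∀ l (v : Fin m → R), φ l ((πT v : ↥T) : X) = v l * z0 := by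
    intro l v
    rw [← hψ l v, ← hφ l]
    rfl
  have hTkill : ∀ a ∈ J, ∀ t : ↥T, a • t = 0 := by
    intro a ha t
    apply Subtype.ext
    exact t.2 a ha
  refine ⟨m, LinearMap.pi φ, ?_, ?_, ?_, ?_⟩
  · obtain ⟨x, hx⟩ := exists_ne (0 : X)
    obtain ⟨r, hr, hrT⟩ := exists_smul_mem_soc hJ hsq hx
    have : Nontrivial ↥T := ⟨⟨⟨r • x, hrT⟩, 0, fun h => hr (congrArg Subtype.val h)⟩⟩
    exact hπT.pos_of_nontrivial
  · rw [injective_iff_map_eq_zero]
    intro x hx0
    by_contra hx
    obtain ⟨r, hr, hrT⟩ := exists_smul_mem_soc hJ hsq hx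
    obtain ⟨v, hv⟩ := hπT.surj ⟨r • x, hrT⟩
    have hv' : ((πT v : ↥T) : X) = r • x := congrArg Subtype.val hv
    have h1 : ∀ l, v l ∈ J := by
      intro l
      apply hann
      rw [← hφ' l v, hv', map_smul]
      have : φ l x = 0 := congrFun hx0 l
      rw [this, smul_zero]
    apply hr
    rw [← hv', pi_apply_sum πT v]
    have : ∑ l, v l • πT (Pi.single l 1) = 0 :=
      Finset.sum_eq_zero fun l _ => hTkill _ (h1 l) _
    rw [this]
    rfl
  · intro x l
    by_contra hu
    have hu' := hJ.unit _ hu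
    have h1 : z0 * (LinearMap.pi φ x l) = 0 := by
      change z0 * φ l x = 0
      rw [← smul_eq_mul, ← map_smul, Jsq_smul_eq_zero hsq hz0 x, map_zero]
    exact hz0ne ((hu'.mul_left_eq_zero).mp h1)
  · intro v hv
    choose c hc using fun l => hgen (v l) (hv l)
    refine ⟨((πT c : ↥T) : X), ?_⟩
    ext l
    change φ l ((πT c : ↥T) : X) = v l
    rw [hφ' l c, hc l]

end Backward

end Vale.Agent.Lib.P195
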