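import Vale.Agent.Lib.P195.Basics

/-!
# P195: length bookkeeping over the central Artinian ring `k`
-/

universe u

namespace Vale.Agent.Lib.P195

open Submodule

variable {k : Type*} [CommRing k] {R : Type u} [Ring R] [Algebra k R]

section

variable {X : Type*} [AddCommGroup X] [Module R X] [Module k X] [IsScalarTower k R X]

/-- An `R`-submodule, seen as a `k`-submodule, is the same `k`-module. -/
def rsEquiv (k : Type*) [CommRing k] [Algebra k R] [Module k X] [IsScalarTower k R X]
    (V : Submodule R X) : ↥(V.restrictScalars k) ≃ₗ[k] ↥V where
  toFun x := ⟨x.1, x.2⟩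
  invFun x := ⟨x.1, x.2⟩
  map_add' _ _ := rfl
  map_smul' _ _ := rfl
  left_inv _ := rfl
  right_inv _ := rfl

lemma length_restrictScalars (V : Submodule R X) :
    Module.length k ↥(V.restrictScalars k) = Module.length k ↥V :=
  (rsEquiv k V).length_eq

lemma length_sub_add_quot' (V : Submodule R X) :
    Module.length k X = Module.length k ↥V + Module.length k (X ⧸ V) := by
  have hf : Function.Injective (V.subtype.restrictScalars k) := by
    rw [LinearMap.coe_restrictScalars]; exact V.subtype_injective
  have hg : Function.Surjective (V.mkQ.restrictScalars k) := by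
    rw [LinearMap.coe_restrictScalars]; exact V.mkQ_surjective
  have H : Function.Exact (V.subtype.restrictScalars k) (V.mkQ.restrictScalars k) := by
    rw [LinearMap.coe_restrictScalars, LinearMap.coe_restrictScalars]
    exact LinearMap.exact_subtype_mkQ V
  exact Module.length_eq_add_of_exact _ _ hf hg H

section maps

variable {Y Z : Type*} [AddCommGroup Y] [Module R Y] [Module k Y] [IsScalarTower k R Y]
  [AddCommGroup Z] [Module R Z] [Module k Z] [IsScalarTower k R Z]

lemma length_exact_R (f : Y →ₗ[R] X) (g : X →ₗ[R] Z) (hf : Function.Injective f)
    (hg : Function.Surjective g) (H : Function.Exact f g) :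
    Module.length k X = Module.length k Y + Module.length k Z := by
  have hf' : Function.Injective (f.restrictScalars k) := by
    rw [LinearMap.coe_restrictScalars]; exact hf
  have hg' : Function.Surjective (g.restrictScalars k) := by
    rw [LinearMap.coe_restrictScalars]; exact hg
  have H' : Function.Exact (f.restrictScalars k) (g.restrictScalars k) := by
    rw [LinearMap.coe_restrictScalars, LinearMap.coe_restrictScalars]
    exact H
  exact Module.length_eq_add_of_exact _ _ hf' hg' H'

lemma length_equiv_R (e : X ≃ₗ[R] Y) : Module.length k X = Module.length k Y :=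
  (e.restrictScalars k).length_eq

end maps

instance finite_sub [IsArtinianRing k] [Module.Finite k X] (V : Submodule R X) :
    Module.Finite k ↥V :=
  Module.Finite.equiv (rsEquiv k V)

end

section klin

variable {M N : Type*} [AddCommGroup M] [Module k M] [AddCommGroup N] [Module k N]

lemma length_ker_add_range (f : M →ₗ[k] N) :
    Module.length k M = Module.length k (LinearMap.ker f) + Module.length k (LinearMap.range f) :=
  Module.length_eq_add_of_exact (LinearMap.ker f).subtype f.rangeRestrict
    (Submodule.subtype_injective _) f.surjective_rangeRestrict (by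
      intro x
      constructor
      · intro h
        refine ⟨⟨x, ?_⟩, rfl⟩
        have := congrArg Subtype.val h
        simpa using this
      · rintro ⟨y, rfl⟩
        ext
        simp)

lemma length_le_of_le {A B : Submodule k M} (h : A ≤ B) :
    Module.length k A ≤ Module.length k B :=
  Module.length_le_of_injective (Submodule.inclusion h) (Submodule.inclusion_injective h)

lemma length_lt_of_lt [IsArtinian k M] [IsNoetherian k M] {A B : Submodule k M} (h : A < B) :
    Module.length k A < Module.length k B := by
  rw [Module.length_submodule, Module.length_submodule]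
  exact Submodule.height_strictMono h

lemma length_sub_add_quot (A : Submodule k M) :
    Module.length k M = Module.length k A + Module.length k (M ⧸ A) :=
  Module.length_eq_add_of_exact A.subtype A.mkQ (Submodule.subtype_injective _)
    (Submodule.mkQ_surjective _) (LinearMap.exact_subtype_mkQ A)

/-- `k`-length of a power of a submodule. -/
lemma length_pi_sub (T : Submodule k M) (n : ℕ) :
    Module.length k ↥(Submodule.pi Set.univ (fun _ : Fin n => T)) = n * Module.length k ↥T := by
  have hinj : Function.Injective (T.subtype.compLeft (Fin n)) := by
    intro a b hab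
    ext i
    have := congrFun hab i
    simpa using this
  have hr : LinearMap.range (T.subtype.compLeft (Fin n)) =
      Submodule.pi Set.univ (fun _ : Fin n => T) := by
    ext v
    constructor
    · rintro ⟨a, rfl⟩
      intro i _
      simp
    · intro hv
      exact ⟨fun i => ⟨v i, hv i (Set.mem_univ i)⟩, by ext i; simp⟩
  rw [← hr, ← (LinearEquiv.ofInjective _ hinj).length_eq, Module.length_pi]
  simp

/-- Upper bound for the length of the range through a submodule of the target. -/
lemma length_range_le (f : M →ₗ[k] N) (N' : Submodule k N) :
    Module.length k (LinearMap.range f) ≤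
      Module.length k N' + Module.length k (LinearMap.range (N'.mkQ.comp f)) := by
  let g : LinearMap.range f →ₗ[k] (N ⧸ N') := N'.mkQ.comp (LinearMap.range f).subtype
  have h1 := length_ker_add_range g
  have h2 : Module.length k (LinearMap.ker g) ≤ Module.length k N' := by
    refine Module.length_le_of_injective
      (LinearMap.codRestrict N' ((LinearMap.range f).subtype.comp (LinearMap.ker g).subtype) ?_) ?_
    · intro x
      have h0 : g x.1 = 0 := LinearMap.mem_ker.mp x.2
      have h00 : N'.mkQ (x.1 : N) = 0 := h0
      rw [Submodule.mkQ_apply, Submodule.Quotient.mk_eq_zero] at h00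
      exact h00
    · intro a b hab
      have := congrArg Subtype.val hab
      exact Subtype.ext (Subtype.ext this)
  have h3 : LinearMap.range g = LinearMap.range (N'.mkQ.comp f) := by
    ext y
    constructor
    · rintro ⟨⟨_, ⟨x, rfl⟩⟩, rfl⟩
      exact ⟨x, rfl⟩
    · rintro ⟨x, rfl⟩
      exact ⟨⟨f x, ⟨x, rfl⟩⟩, rfl⟩
  rw [h1, h3]
  exact add_le_add_left h2 _

/-- If `g` kills `M'`, then its range is no longer than `M ⧸ M'`. -/
lemma length_range_le_quot (g : M →ₗ[k] N) (M' : Submodule k M) (h : M' ≤ LinearMap.ker g) :
    Module.length k (LinearMap.range g) ≤ Module.length k (M ⧸ M') := by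
  refine Module.length_le_of_surjective
    ((M'.liftQ g h).codRestrict (LinearMap.range g) ?_) ?_
  · intro x
    obtain ⟨x, rfl⟩ := M'.mkQ_surjective x
    exact ⟨x, by simp⟩
  · rintro ⟨_, ⟨x, rfl⟩⟩
    exact ⟨M'.mkQ x, by ext; simp⟩

end klin

section pis

variable {X : Type*} [AddCommGroup X] [Module R X] [Module k X] [IsScalarTower k R X]

lemma length_pi_sub' (T : Submodule R X) (n : ℕ) :
    Module.length k ↥(Submodule.pi Set.univ (fun _ : Fin n => T)) = n * Module.length k ↥T := by
  rw [← length_restrictScalars (k := k) T, ← length_pi_sub, ← length_restrictScalars (k := k)]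
  rfl

lemma length_quot_pi (T : Submodule R X) (n : ℕ) :
    Module.length k ((Fin n → X) ⧸ (Submodule.pi Set.univ (fun _ : Fin n => T.restrictScalars k)))
      = n * Module.length k (X ⧸ T) := by
  classical
  rw [(Submodule.quotientPi (fun _ : Fin n => T.restrictScalars k)).length_eq, Module.length_pi,
    (Submodule.Quotient.restrictScalarsEquiv k T).length_eq]
  simp

end pis

end Vale.Agent.Lib.P195
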