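import Mathlib

/-!
# P195: the numerical endgame
-/

namespace Vale.Agent.Lib.P195

lemma num_B (P : ℕ → ℕ → Prop)
    (h : ∀ p q, P p q → 0 < p ∧ q ≤ p ∧ ∃ r, P q r ∧ r * p < q * q) : ∀ p q, ¬ P p q := by
  intro p q
  induction q using Nat.strong_induction_on generalizing p with
  | _ q ih =>
    intro hP
    obtain ⟨hp, hqp, r, hr, hlt⟩ := h p q hP
    have hrq : r < q := by
      by_contra hcon
      push Not at hcon
      have h1 : q * q ≤ r * p := Nat.mul_le_mul hcon hqp
      omega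
    exact ih r hrq q hr

lemma num_A (P : ℕ → ℕ → Prop)
    (h : ∀ p q, P p q → 0 < p ∧ 0 < q ∧ ∃ r, P q r ∧ 2 * (r * p) < q * q) : ∀ p q, ¬ P p q := by
  have key : ∀ m p q, P p q → q < 2 ^ m * p → False := by
    intro m
    induction m with
    | zero =>
      intro p q hP hq
      refine num_B (fun p q => P p q ∧ q ≤ p) ?_ p q ⟨hP, by omega⟩
      rintro p q ⟨hP, hqp⟩
      obtain ⟨hp, hq, r, hr, hlt⟩ := h p q hP
      refine ⟨hp, hqp, r, ⟨hr, ?_⟩, by omega⟩
      by_contra hcon
      push Not at hcon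
      have h1 : q * q ≤ r * p := Nat.mul_le_mul hcon.le hqp
      omega
    | succ m ih =>
      intro p q hP hq
      obtain ⟨hp, hq0, r, hr, hlt⟩ := h p q hP
      apply ih q r hr
      by_contra hcon
      push Not at hcon
      have h1 : 2 ^ m * q * p ≤ r * p := Nat.mul_le_mul_right p hcon
      have h2 : q * q ≤ q * (2 ^ (m + 1) * p) := Nat.mul_le_mul_left q hq.le
      have h3 : q * (2 ^ (m + 1) * p) = 2 * (2 ^ m * q * p) := by ring
      omega
  intro p q hP
  obtain ⟨hp, hq, -⟩ := h p q hP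
  apply key q p q hP
  calc q < 2 ^ q := Nat.lt_two_pow_self
    _ ≤ 2 ^ q * p := Nat.le_mul_of_pos_right _ hp

lemma num_C (P : ℕ → ℕ → Prop)
    (h : ∀ p q, P p q → 0 < p ∧ 0 < q ∧ (∃ r, P q r ∧ r * p < q * q) ∧
      (∃ o, P o p ∧ q * o < p * p)) : ∀ p q, ¬ P p q := by
  have key : ∀ p q, P p q → p < q → False := by
    intro p
    induction p using Nat.strong_induction_on with
    | _ p ih =>
      intro q hP hpq
      obtain ⟨hp, hq, -, o, ho, hlt⟩ := h p q hP
      have hop : o < p := by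
        by_contra hcon
        push Not at hcon
        have h1 : p * p ≤ q * o := Nat.mul_le_mul hpq.le hcon
        omega
      exact ih o hop p ho hop
  intro p q hP
  by_cases hqp : q ≤ p
  · refine num_B (fun p q => P p q ∧ q ≤ p) ?_ p q ⟨hP, hqp⟩
    rintro p q ⟨hP, hqp⟩
    obtain ⟨hp, hq, ⟨r, hr, hlt⟩, -⟩ := h p q hP
    refine ⟨hp, hqp, r, ⟨hr, ?_⟩, hlt⟩
    by_contra hcon
    push Not at hcon
    have h1 : q * q ≤ r * p := Nat.mul_le_mul hcon.le hqp
    omega
  · exact key p q hP (by omega)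

end Vale.Agent.Lib.P195
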