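import Vale.Agent.Lib.P195.Injective
import Vale.Agent.Lib.P195.ExtModule
import Vale.Agent.Lib.P195.Numeric

/-!
# P195: the Auslander-Reiten conjecture for local Artin algebras with radical cube zero
-/

universe u

namespace Vale.Agent.Lib.P195

open Submodule CategoryTheory Abelian

variable {R : Type u} [Ring R] {J : Ideal R}

/-- The class of modules on which the descent runs. -/
structure InC (J : Ideal R) (X : Type u) [AddCommGroup X] [Module R X] : Prop where
  nontriv : Nontrivial X
  sq : ∀ a ∈ J, ∀ b ∈ J, ∀ x : X, a • b • x = 0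
  nf : ∀ (f : X →ₗ[R] R) (x : X), f x ∈ J
  ar : ARcond R X

section Syz

variable {X Y : Type u} [AddCommGroup X] [Module R X] [AddCommGroup Y] [Module R Y]
variable {p : ℕ} {π : (Fin p → R) →ₗ[R] X} {i : Y →ₗ[R] (Fin p → R)}

lemma syzygy_inC (hJ : ShortLocal J) (hπ : IsMinCover J π) (hi : Function.Injective i)
    (hex : Function.Exact i π) (har : ARcond R X) [Nontrivial Y] : InC J Y where
  nontriv := inferInstance
  sq := by
    intro a ha b hb y
    apply hi
    rw [map_smul, map_smul, map_zero]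
    ext l
    change a * (b * i y l) = 0
    rw [← mul_assoc]
    exact hJ.cube a ha b hb _ (hπ.min _ (hex.apply_apply_eq_zero _) l)
  nf := by
    intro f y
    obtain ⟨g, hg⟩ := extension_of_ext_one hi hπ.surj hex (har.2 0) f
    rw [← hg, LinearMap.comp_apply, pi_apply_sum g]
    exact J.sum_mem fun l _ => hJ.mul_right _ (hπ.min _ (hex.apply_apply_eq_zero _) l) _
  ar := har.syzygy hi hπ.surj hex

lemma syzygy_nontrivial (hJ : ShortLocal J) (hπ : IsMinCover J π)
    (hex : Function.Exact i π) (hX : InC J X) : Nontrivial Y := by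
  classical
  by_contra hY
  rw [not_nontrivial_iff_subsingleton] at hY
  have := hX.nontriv
  have hp : 0 < p := hπ.pos_of_nontrivial
  have hinj : Function.Injective π := by
    rw [injective_iff_map_eq_zero]
    intro v hv
    obtain ⟨y, rfl⟩ := (hex v).mp hv
    rw [Subsingleton.elim y 0, map_zero]
  let e := LinearEquiv.ofBijective π ⟨hinj, hπ.surj⟩
  have h1 := hX.nf ((LinearMap.proj (⟨0, hp⟩ : Fin p)).comp e.symm.toLinearMap)
    (π (Pi.single ⟨0, hp⟩ 1))
  have h2 : e.symm (π (Pi.single ⟨0, hp⟩ 1)) = Pi.single ⟨0, hp⟩ 1 := by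
    rw [LinearEquiv.symm_apply_eq]
    rfl
  rw [LinearMap.comp_apply, LinearEquiv.coe_coe, h2, LinearMap.proj_apply,
    Pi.single_eq_same] at h1
  exact hJ.not_unit h1 isUnit_one

end Syz

variable {k : Type*} [CommRing k] [IsArtinianRing k] [Algebra k R] [Module.Finite k R]

section Fwd

variable {X Y Z : Type u} [AddCommGroup X] [Module R X] [AddCommGroup Y] [Module R Y]
  [Module k Y] [IsScalarTower k R Y] [Module.Finite k Y] [AddCommGroup Z] [Module R Z]
variable {p q r : ℕ} {π : (Fin p → R) →ₗ[R] X} {i : Y →ₗ[R] (Fin p → R)}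
  {ρ : (Fin q → R) →ₗ[R] Y} {i' : Z →ₗ[R] (Fin q → R)} {σ : (Fin r → R) →ₗ[R] Z}

lemma fwd_facts (hJ : ShortLocal J) (hX : InC J X) (hπ : IsMinCover J π)
    (hi : Function.Injective i) (hex : Function.Exact i π) (hρ : IsMinCover J ρ)
    (hi' : Function.Injective i') (hex' : Function.Exact i' ρ) (hσ : IsMinCover J σ) :
    InC J Y ∧ 0 < p ∧ 0 < q ∧ 0 < r ∧
    r * (p * Module.length k ↥(Jsq J)) + 1 ≤ q * q * Module.length k (R ⧸ J) ∧
    Module.length k ↥(Jsq J) ≠ 0 ∧
    q * Module.length k ↥(soc hJ R) ≤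
      q * Module.length k ↥(Jsq J) + p * Module.length k (R ⧸ J) := by
  have hXn := hX.nontriv
  have hYn : Nontrivial Y := syzygy_nontrivial hJ hπ hex hX
  have hY : InC J Y := syzygy_inC hJ hπ hi hex hX.ar
  have hZn : Nontrivial Z := syzygy_nontrivial hJ hρ hex' hY
  have hr : 0 < r := hσ.pos_of_nontrivial
  have hEP := extension_of_ext_one hi' hρ.surj hex' hY.ar.1
  have hsoc := soc_le_rad hρ hex' hσ hr hEP
  have hlen := length_rad_syzygy (k := k) hJ hπ hi hex hX.sq hsoc
  have hcount := counting (k := k) hJ hρ hex' hσ hY.sq hEP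
  rw [hlen] at hcount
  refine ⟨hY, hπ.pos_of_nontrivial, hρ.pos_of_nontrivial, hr, hcount, ?_, ?_⟩
  · intro h0
    rw [h0, mul_zero, Module.length_eq_zero_iff] at hlen
    obtain ⟨y, hy⟩ := exists_ne (0 : Y)
    apply hy
    have hbot : ∀ z ∈ J • (⊤ : Submodule R Y), z = 0 := by
      intro z hz
      have := Subsingleton.elim (⟨z, hz⟩ : ↥(J • (⊤ : Submodule R Y))) 0
      exact congrArg Subtype.val this
    exact hbot y (hsoc y fun a ha => hbot _ (Submodule.smul_mem_smul ha mem_top))
  · exact deg_ineq hJ hπ hex hρ (extension_of_ext_one hi hπ.surj hex (hX.ar.2 0))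

end Fwd

/-- Two consecutive steps of a minimal resolution inside the class. -/
def Chain (k : Type*) [CommRing k] [Algebra k R] (J : Ideal R) (p q : ℕ) : Prop :=
  ∃ (X Y : Type u) (_ : AddCommGroup X) (_ : Module R X) (_ : Module k X)
    (_ : IsScalarTower k R X) (_ : Module.Finite k X)
    (_ : AddCommGroup Y) (_ : Module R Y) (_ : Module k Y)
    (_ : IsScalarTower k R Y) (_ : Module.Finite k Y)
    (π : (Fin p → R) →ₗ[R] X) (i : Y →ₗ[R] (Fin p → R)) (ρ : (Fin q → R) →ₗ[R] Y),
    InC J X ∧ IsMinCover J π ∧ Function.Injective i ∧ Function.Exact i π ∧ IsMinCover J ρ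

lemma chain_fwd (hJ : ShortLocal J) {p q : ℕ} (h : Chain k J p q) :
    ∃ r, Chain k J q r ∧ 0 < p ∧ 0 < q ∧ 0 < r ∧
    r * (p * Module.length k ↥(Jsq J)) + 1 ≤ q * q * Module.length k (R ⧸ J) ∧
    Module.length k ↥(Jsq J) ≠ 0 ∧
    q * Module.length k ↥(soc hJ R) ≤
      q * Module.length k ↥(Jsq J) + p * Module.length k (R ⧸ J) := by
  obtain ⟨X, Y, _, _, _, _, _, _, _, _, _, _, π, i, ρ, hX, hπ, hi, hex, hρ⟩ := h
  have : Module.Finite R ↥(LinearMap.ker ρ) := Module.Finite.of_restrictScalars_finite k R _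
  obtain ⟨r, σ, hσ⟩ := exists_minCover hJ ↥(LinearMap.ker ρ)
  obtain ⟨hY, h1, h2, h3, h4, h5, h6⟩ := fwd_facts (k := k) hJ hX hπ hi hex hρ
    (Submodule.subtype_injective _) (LinearMap.exact_subtype_ker_map ρ) hσ
  exact ⟨r, ⟨Y, ↥(LinearMap.ker ρ), _, _, _, inferInstance, inferInstance, _, _, _, inferInstance,
    inferInstance, ρ, (LinearMap.ker ρ).subtype, σ, hY, hρ, Submodule.subtype_injective _,
    LinearMap.exact_subtype_ker_map ρ, hσ⟩, h1, h2, h3, h4, h5, h6⟩

lemma chain_bwd (hJ : ShortLocal J)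
    (hnd : Module.length k ↥(soc hJ R) ≤ Module.length k (R ⧸ J))
    (z0 : R) (hz0 : z0 ∈ Jsq J) (hz0ne : z0 ≠ 0) (hgen : ∀ z ∈ Jsq J, ∃ c : R, z = c * z0)
    (hann : ∀ c : R, c * z0 = 0 → c ∈ J) {p q : ℕ} (h : Chain k J p q) :
    ∃ o, Chain k J o p ∧
      q * (o * Module.length k ↥(Jsq J)) + 1 ≤ p * p * Module.length k (R ⧸ J) := by
  classical
  obtain ⟨X, Y, _, _, _, _, _, _, _, _, _, _, π, i, ρ, hX, hπ, hi, hex, hρ⟩ := h
  have := hX.nontriv
  obtain ⟨m, φ, hm, hφinj, hφJ, hφsq⟩ := backward (k := k) hJ hnd z0 hz0 hz0ne hgen hann hX.sq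
  have hπ' : IsMinCover J (LinearMap.range φ).mkQ := by
    refine ⟨Submodule.mkQ_surjective _, fun v hv l => ?_⟩
    rw [Submodule.mkQ_apply, Submodule.Quotient.mk_eq_zero] at hv
    obtain ⟨x, rfl⟩ := hv
    exact hφJ x l
  have hex' : Function.Exact φ (LinearMap.range φ).mkQ := LinearMap.exact_map_mkQ_range φ
  have hsq' : ∀ a ∈ J, ∀ b ∈ J, ∀ x : (Fin m → R) ⧸ LinearMap.range φ, a • b • x = 0 := by
    intro a ha b hb x
    obtain ⟨v, rfl⟩ := (LinearMap.range φ).mkQ_surjective x
    rw [← map_smul, ← map_smul, Submodule.mkQ_apply, Submodule.Quotient.mk_eq_zero]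
    exact hφsq _ fun l => Submodule.smul_mem_smul ha (hJ.mul_right b hb (v l))
  have hX' : InC J ((Fin m → R) ⧸ LinearMap.range φ) := by
    refine ⟨?_, hsq', ?_, ?_⟩
    · apply Submodule.Quotient.nontrivial_iff.mpr
      intro htop
      have : (Pi.single ⟨0, hm⟩ 1 : Fin m → R) ∈ LinearMap.range φ := by rw [htop]; exact mem_top
      obtain ⟨x, hx⟩ := this
      have h1 := hφJ x ⟨0, hm⟩
      rw [hx, Pi.single_eq_same] at h1
      exact hJ.not_unit h1 isUnit_one
    · intro f x
      by_contra hu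
      have hu' := hJ.unit _ hu
      have h1 : z0 * f x = 0 := by
        rw [← smul_eq_mul, ← map_smul, Jsq_smul_eq_zero hsq' hz0 x, map_zero]
      exact hz0ne ((hu'.mul_left_eq_zero).mp h1)
    · exact ARcond.cosyzygy hφinj hπ'.surj hex' hX.ar
        (fun f => inj_R (k := k) hJ hnd φ hφinj f)
  obtain ⟨-, -, -, -, h4, -, -⟩ := fwd_facts (k := k) hJ hX' hπ' hφinj hex' hπ hi hex hρ
  exact ⟨m, ⟨(Fin m → R) ⧸ LinearMap.range φ, X, _, _, _, inferInstance, inferInstance,
    _, _, _, inferInstance, inferInstance, (LinearMap.range φ).mkQ, φ, π, hX', hπ', hφinj,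
    hex', hπ⟩, h4⟩

lemma lt_of_mul_add_one_le {x y d : ℕ} (h : x * d + 1 ≤ y * d) : x < y := by
  by_contra hcon
  push Not at hcon
  have := Nat.mul_le_mul_right d hcon
  omega

theorem no_chain (hJ : ShortLocal J) : ∀ p q, ¬ Chain k J p q := by
  have fd : Module.length k (R ⧸ J) ≠ ⊤ := Module.length_ne_top
  obtain ⟨d, hd⟩ := ENat.ne_top_iff_exists.mp fd
  have hJtop : J ≠ ⊤ := by
    intro htop
    have : (1 : R) ∈ J := by rw [htop]; exact mem_top
    exact hJ.not_unit this isUnit_one
  have hnt : Nontrivial (R ⧸ J) := Submodule.Quotient.nontrivial_iff.mpr hJtop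
  have hd0' : 0 < Module.length k (R ⧸ J) := Module.length_pos
  have hd0 : 0 < d := by
    rw [← hd] at hd0'
    exact_mod_cast hd0'
  have f1 : Module.Finite R ↥(Jsq J) := Module.Finite.of_restrictScalars_finite k R _
  have f2 : Module.Finite R ↥(soc hJ R) := Module.Finite.of_restrictScalars_finite k R _
  obtain ⟨a, πa, hπa⟩ := exists_minCover hJ ↥(Jsq J)
  obtain ⟨s, πs, hπs⟩ := exists_minCover hJ ↥(soc hJ R)
  have killA : ∀ c ∈ J, ∀ t : ↥(Jsq J), c • t = 0 := by
    intro c hc t
    apply Subtype.ext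
    exact mul_Jsq_eq_zero hJ hc t.2
  have killS : ∀ c ∈ J, ∀ t : ↥(soc hJ R), c • t = 0 := by
    intro c hc t
    apply Subtype.ext
    exact t.2 c hc
  have hA : Module.length k ↥(Jsq J) = a * d := by
    rw [hπa.length_of_killed (k := k) hJ killA, ← hd]
  have hS : Module.length k ↥(soc hJ R) = s * d := by
    rw [hπs.length_of_killed (k := k) hJ killS, ← hd]
  have step : ∀ p q, Chain k J p q → ∃ r, Chain k J q r ∧ 0 < p ∧ 0 < q ∧ 0 < r ∧
      r * (p * (a * d)) + 1 ≤ q * q * d ∧ a ≠ 0 ∧ q * (s * d) ≤ q * (a * d) + p * d := by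
    intro p q h
    obtain ⟨r, hr, h1, h2, h3, h4, h5, h6⟩ := chain_fwd (k := k) hJ h
    rw [hA, ← hd] at h4
    rw [hA] at h5
    rw [hA, hS, ← hd] at h6
    refine ⟨r, hr, h1, h2, h3, by exact_mod_cast h4, ?_, by exact_mod_cast h6⟩
    rintro rfl
    apply h5
    simp
  rcases Nat.lt_or_ge a 2 with ha | ha
  · rcases Nat.lt_or_ge s 2 with hs | hs
    · -- the nondegenerate case
      intro p q h
      have ha1 : a = 1 := by
        obtain ⟨r, -, -, -, -, -, h5, -⟩ := step p q h
        omega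
      subst ha1
      have hnd : Module.length k ↥(soc hJ R) ≤ Module.length k (R ⧸ J) := by
        rw [hS, ← hd]
        have : s * d ≤ d := by
          calc s * d ≤ 1 * d := Nat.mul_le_mul_right d (by omega)
            _ = d := one_mul d
        exact_mod_cast this
      obtain ⟨z, hz1, hz2⟩ := exists_cyclic_gen (k := k) hJ killA fd hd0'.ne'
        (by rw [hA, ← hd]; simp)
      have hzne : (z : R) ≠ 0 := by
        intro hz0
        have : (1 : R) ∈ J := hz2 1 (by
          apply Subtype.ext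
          rw [one_smul]
          exact hz0)
        exact hJ.not_unit this isUnit_one
      have hgen : ∀ w ∈ Jsq J, ∃ c : R, w = c * (z : R) := by
        intro w hw
        obtain ⟨c, hc⟩ := hz1 ⟨w, hw⟩
        exact ⟨c, congrArg Subtype.val hc⟩
      have hann : ∀ c : R, c * (z : R) = 0 → c ∈ J := by
        intro c hc
        exact hz2 c (Subtype.ext hc)
      refine num_C (Chain k J) ?_ p q h
      intro p q h
      obtain ⟨r, hr, h1, h2, h3, h4, -, -⟩ := step p q h
      obtain ⟨o, ho, h7⟩ := chain_bwd (k := k) hJ hnd z z.2 hzne hgen hann h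
      rw [hA, ← hd] at h7
      have h7' : q * (o * (1 * d)) + 1 ≤ p * p * d := by exact_mod_cast h7
      refine ⟨h1, h2, ⟨r, hr, ?_⟩, ⟨o, ho, ?_⟩⟩
      · apply lt_of_mul_add_one_le (d := d)
        calc r * p * d + 1 = r * (p * (1 * d)) + 1 := by ring
          _ ≤ q * q * d := h4
      · apply lt_of_mul_add_one_le (d := d)
        calc q * o * d + 1 = q * (o * (1 * d)) + 1 := by ring
          _ ≤ p * p * d := h7'
    · -- the degenerate case
      refine num_B (Chain k J) ?_
      intro p q h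
      obtain ⟨r, hr, h1, h2, h3, h4, h5, h6⟩ := step p q h
      have ha1 : a = 1 := by omega
      subst ha1
      refine ⟨h1, ?_, r, hr, ?_⟩
      · have h8 : q * 2 * d ≤ (q + p) * d := by
          calc q * 2 * d ≤ q * s * d := by gcongr
            _ = q * (s * d) := by ring
            _ ≤ q * (1 * d) + p * d := h6
            _ = (q + p) * d := by ring
        have := Nat.le_of_mul_le_mul_right h8 hd0
        omega
      · apply lt_of_mul_add_one_le (d := d)
        calc r * p * d + 1 = r * (p * (1 * d)) + 1 := by ring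
          _ ≤ q * q * d := h4
  · refine num_A (Chain k J) ?_
    intro p q h
    obtain ⟨r, hr, h1, h2, h3, h4, h5, h6⟩ := step p q h
    refine ⟨h1, h2, r, hr, ?_⟩
    apply lt_of_mul_add_one_le (d := d)
    calc 2 * (r * p) * d + 1 ≤ a * (r * p) * d + 1 := by gcongr
      _ = r * (p * (a * d)) + 1 := by ring
      _ ≤ q * q * d := h4

theorem projective_of_ARcond (hJ : ShortLocal J) (M : Type u) [AddCommGroup M] [Module R M]
    [Module k M] [IsScalarTower k R M] [Module.Finite k M] (h : ARcond R M) :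
    Module.Projective R M := by
  have : Module.Finite R M := Module.Finite.of_restrictScalars_finite k R _
  obtain ⟨p, π, hπ⟩ := exists_minCover hJ M
  by_cases hK : Nontrivial ↥(LinearMap.ker π)
  · exfalso
    have hX0 : InC J ↥(LinearMap.ker π) := syzygy_inC hJ hπ (Submodule.subtype_injective _)
      (LinearMap.exact_subtype_ker_map π) h
    have : Module.Finite R ↥(LinearMap.ker π) := Module.Finite.of_restrictScalars_finite k R _
    obtain ⟨p0, ρ, hρ⟩ := exists_minCover hJ ↥(LinearMap.ker π)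
    have : Module.Finite R ↥(LinearMap.ker ρ) := Module.Finite.of_restrictScalars_finite k R _
    obtain ⟨q0, σ, hσ⟩ := exists_minCover hJ ↥(LinearMap.ker ρ)
    exact no_chain (k := k) hJ p0 q0 ⟨↥(LinearMap.ker π), ↥(LinearMap.ker ρ), _, _, _,
      inferInstance, inferInstance, _, _, _, inferInstance, inferInstance, ρ,
      (LinearMap.ker ρ).subtype, σ, hX0, hρ, Submodule.subtype_injective _,
      LinearMap.exact_subtype_ker_map ρ, hσ⟩
  · rw [not_nontrivial_iff_subsingleton] at hK
    have hinj : Function.Injective π := by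
      rw [injective_iff_map_eq_zero]
      intro v hv
      have := Subsingleton.elim (⟨v, LinearMap.mem_ker.mpr hv⟩ : ↥(LinearMap.ker π)) 0
      exact congrArg Subtype.val this
    exact Module.Projective.of_equiv (LinearEquiv.ofBijective π ⟨hinj, hπ.surj⟩)

section LocalRing

/-- In a local ring, an element outside the Jacobson radical is a unit. -/
lemma isUnit_of_not_mem_jacobson [IsLocalRing R] {x : R} (hx : x ∉ Ring.jacobson R) :
    IsUnit x := by
  rw [Ring.jacobson_eq_sInf_isMaximal, Submodule.mem_sInf] at hx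
  push Not at hx
  obtain ⟨m, hm, hxm⟩ := hx
  obtain ⟨y, i, hi, hyi⟩ := Ideal.IsMaximal.exists_inv hm hxm
  rcases IsLocalRing.isUnit_or_isUnit_of_add_one hyi with h | h
  · -- `y * x` is a unit, so `x` has a left inverse `w`
    obtain ⟨u, hu⟩ := h
    set w : R := ↑u⁻¹ * y with hw
    have hwx : w * x = 1 := by
      rw [hw, mul_assoc, ← hu, Units.inv_mul]
    have hidem : (x * w) * (x * w) = x * w := by
      calc (x * w) * (x * w) = x * (w * x) * w := by simp only [mul_assoc]
        _ = x * w := by rw [hwx, mul_one]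
    rcases IsLocalRing.isUnit_or_isUnit_of_add_one (add_sub_cancel (x * w) 1) with h1 | h1
    · obtain ⟨v, hv⟩ := h1
      have hxw : x * w = 1 := by
        have h2 : (↑v⁻¹ : R) * ((x * w) * (x * w)) = ↑v⁻¹ * (x * w) := by rw [hidem]
        rw [← mul_assoc, ← hv, Units.inv_mul, one_mul] at h2
        rw [← hv]
        exact h2
      exact ⟨⟨x, w, hxw, hwx⟩, rfl⟩
    · exfalso
      obtain ⟨v, hv⟩ := h1
      have h3 : (1 - x * w) * (x * w) = 0 := by
        rw [sub_mul, one_mul, hidem, sub_self]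
      have h4 : x * w = 0 := by
        have h5 : (↑v⁻¹ : R) * ((1 - x * w) * (x * w)) = 0 := by rw [h3, mul_zero]
        rwa [← mul_assoc, ← hv, Units.inv_mul, one_mul] at h5
      have h6 : (1 : R) = 0 := by
        calc (1 : R) = (w * x) * (w * x) := by rw [hwx, one_mul]
          _ = w * (x * w) * x := by simp only [mul_assoc]
          _ = 0 := by rw [h4, mul_zero, zero_mul]
      exact one_ne_zero h6
  · exfalso
    exact hm.ne_top (Ideal.eq_top_of_isUnit_mem _ hi h)

lemma shortLocal_jacobson [IsLocalRing R] (h3 : Ring.jacobson R ^ 3 = ⊥) :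
    ShortLocal (Ring.jacobson R) where
  mul_right a ha r := Ideal.mul_mem_right _ _ ha
  unit _ hx := isUnit_of_not_mem_jacobson hx
  cube a ha b hb c hc := by
    have : a * b * c ∈ Ring.jacobson R ^ 3 := by
      rw [Submodule.pow_succ, Submodule.pow_succ, Submodule.pow_one]
      exact Submodule.mul_mem_mul (Submodule.mul_mem_mul ha hb) hc
    rw [h3] at this
    exact this
  nontriv := one_ne_zero

end LocalRing

end Vale.Agent.Lib.P195
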